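import Vale.Agent.Lib.P227Y.Gauge

/-!
# JOB Y8: Aleksandrov's lemma at differentiability points
-/

open MeasureTheory Set Filter Topology Matrix
open scoped Pointwise ENNReal Nat

namespace Vale.Agent.Lib.P227Z

variable {n : ℕ} {K : Set (V n)} {x : V n}

private lemma dot_self_nonneg' (v : V n) : 0 ≤ v ⬝ᵥ v := by
  unfold dotProduct
  exact Finset.sum_nonneg fun i _ => mul_self_nonneg _

private lemma dot_self_pos' {v : V n} (hv : v ≠ 0) : 0 < v ⬝ᵥ v :=
  lt_of_le_of_ne (dot_self_nonneg' v) fun h => hv (dotProduct_self_eq_zero.1 h.symm)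

private lemma isCompact_unit_sphere (n : ℕ) : IsCompact {v : V n | v ⬝ᵥ v = 1} := by
  have hcl : IsClosed {v : V n | v ⬝ᵥ v = 1} := by
    refine isClosed_eq ?_ continuous_const
    unfold dotProduct
    fun_prop
  refine Metric.isCompact_of_isClosed_isBounded hcl ?_
  refine (Metric.isBounded_iff_subset_closedBall (0 : V n)).2 ⟨1, fun v hv => ?_⟩
  rw [mem_closedBall_zero_iff, pi_norm_le_iff_of_nonneg zero_le_one]
  intro i
  have hv' : ∑ j, v j * v j = 1 := hv
  have h1 : v i * v i ≤ 1 := by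
    rw [← hv']
    exact Finset.single_le_sum (f := fun j => v j * v j) (fun j _ => mul_self_nonneg _)
      (Finset.mem_univ i)
  rw [Real.norm_eq_abs]
  exact abs_le_one_iff_mul_self_le_one.2 h1

private lemma dot_le_one' {u v : V n} (hu : u ⬝ᵥ u = 1) (hv : v ⬝ᵥ v = 1) : u ⬝ᵥ v ≤ 1 := by
  have h : 0 ≤ (u - v) ⬝ᵥ (u - v) := dot_self_nonneg' _
  rw [sub_dotProduct, dotProduct_sub, dotProduct_sub, hu, hv, dotProduct_comm v u] at h
  linarith

/-- Let `K = wulffV f`, `f` continuous and 1-homogeneous off the origin. At a differentiability point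
`x ≠ 0` of the gauge, `f (gaugeGrad K x) = 1`.

Proof. `y = x / gauge K x` has gauge `1`. If `y · u < f u` for all unit `u` then by compactness
`(1 + ε) y ∈ wulffV f = K`, contradiction; so `y · u₀ = f u₀` for a unit `u₀`, and all `z ∈ K` have
`z · u₀ ≤ f u₀`. With `p = gaugeGrad K x = gaugeGrad K y`: if `p · w < 0` then `gauge K (y + s w) < 1`
for small `s > 0`, so `y + s w ∈ K`, so `w · u₀ ≤ 0`; hence `u₀ = λ p`, `λ > 0`, and
`λ f p = f u₀ = y · u₀ = λ y · p = λ`. (If convenient do not pass to `y`: use homogeneity of the gauge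
at `x` directly.) -/
theorem alek (hK : Body K) {f : V n → ℝ} (hW : wulffV f = K)
    (hcont : ∀ v, v ≠ 0 → ContinuousAt f v)
    (hhom : ∀ (c : ℝ) (v : V n), 0 < c → v ≠ 0 → f (c • v) = c * f v)
    (hx : x ≠ 0) (hd : DifferentiableAt ℝ (gauge K) x) : f (gaugeGrad K x) = 1 := by
  classical
  set p := gaugeGrad K x with hpdef
  have hg : 0 < gauge K x := hK.gauge_pos hx
  have hp0 : p ≠ 0 := hK.grad_ne_zero hd hx
  have hxp : x ⬝ᵥ p = gauge K x := hK.dot_grad_self hd
  set g := gauge K x with hgdef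
  set y : V n := g⁻¹ • x with hy
  have hgauge_smul : ∀ (a : ℝ) (v : V n), 0 ≤ a → gauge K (a • v) = a * gauge K v := by
    intro a v ha
    rw [gauge_smul_of_nonneg ha, smul_eq_mul]
  have hgy : gauge K y = 1 := by
    rw [hy, hgauge_smul _ _ (inv_nonneg.2 hg.le), ← hgdef, inv_mul_cancel₀ hg.ne']
  have hyK : y ∈ K := (hK.mem_iff).2 hgy.le
  have hy0 : y ≠ 0 := by
    intro h0
    rw [h0, gauge_zero] at hgy
    exact zero_ne_one hgy
  have hyW : y ∈ wulffV f := by rw [hW]; exact hyK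
  -- a unit vector where the constraint is tight
  have hex : ∃ u₀ : V n, u₀ ⬝ᵥ u₀ = 1 ∧ y ⬝ᵥ u₀ = f u₀ := by
    by_contra hno
    push Not at hno
    have hlt : ∀ u : V n, u ⬝ᵥ u = 1 → y ⬝ᵥ u < f u := fun u hu =>
      lt_of_le_of_ne (hyW u hu) (hno u hu)
    set cy := Real.sqrt (y ⬝ᵥ y) with hcy
    have hcypos : 0 < cy := Real.sqrt_pos.2 (dot_self_pos' hy0)
    have hcy2 : cy * cy = y ⬝ᵥ y := Real.mul_self_sqrt (dot_self_nonneg' y)
    set w : V n := cy⁻¹ • y with hw
    have hww : w ⬝ᵥ w = 1 := by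
      rw [hw, smul_dotProduct, dotProduct_smul, smul_eq_mul, smul_eq_mul, ← hcy2]
      field_simp
    have hcF : ContinuousOn (fun v => f v - y ⬝ᵥ v) {v : V n | v ⬝ᵥ v = 1} := by
      intro v hv
      have hv0 : v ≠ 0 := by
        rintro rfl
        simp at hv
      have hc2 : Continuous fun v : V n => y ⬝ᵥ v := by
        unfold dotProduct
        fun_prop
      exact ((hcont v hv0).sub hc2.continuousAt).continuousWithinAt
    obtain ⟨v₀, hv₀, hmin⟩ := (isCompact_unit_sphere n).exists_isMinOn ⟨w, hww⟩ hcF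
    set ε := f v₀ - y ⬝ᵥ v₀ with hε
    have hεpos : 0 < ε := by
      have := hlt v₀ hv₀
      simp only [hε]
      linarith
    have hmin' : ∀ v : V n, v ⬝ᵥ v = 1 → ε ≤ f v - y ⬝ᵥ v := fun v hv => hmin hv
    have hmem : y + ε • w ∈ wulffV f := by
      intro v hv
      have h1 := dot_le_one' hww hv
      have h2 := hmin' v hv
      have e : (y + ε • w) ⬝ᵥ v = y ⬝ᵥ v + ε * (w ⬝ᵥ v) := by
        rw [add_dotProduct, smul_dotProduct ε w v, smul_eq_mul]
      rw [e]
      nlinarith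
    rw [hW] at hmem
    have hsm : y + ε • w = (1 + ε * cy⁻¹) • y := by
      rw [hw, smul_smul, add_smul, one_smul]
    rw [hsm] at hmem
    have h3 := (hK.mem_iff).1 hmem
    have hnn : 0 ≤ 1 + ε * cy⁻¹ := by positivity
    rw [hgauge_smul _ _ hnn, hgy] at h3
    have : 0 < ε * cy⁻¹ := by positivity
    linarith
  obtain ⟨u₀, hu₀, htight⟩ := hex
  have hzK : ∀ z ∈ K, z ⬝ᵥ u₀ ≤ f u₀ := by
    intro z hz
    rw [← hW] at hz
    exact hz u₀ hu₀
  -- the key half-space property
  have hhalf : ∀ w : V n, w ⬝ᵥ p < 0 → w ⬝ᵥ u₀ ≤ 0 := by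
    intro w hw
    have hF : HasFDerivAt (gauge K) (fderiv ℝ (gauge K) x) x := hd.hasFDerivAt
    have hline : HasDerivAt (fun t : ℝ => x + t • w) w 0 := by
      have := ((hasDerivAt_id (0 : ℝ)).smul_const w).const_add x
      simpa using this
    have hx0 : x + (0 : ℝ) • w = x := by simp
    have hF' : HasFDerivAt (gauge K) (fderiv ℝ (gauge K) x) (x + (0 : ℝ) • w) := by
      rw [hx0]; exact hF
    have hcomp0 : HasDerivAt ((gauge K) ∘ fun t : ℝ => x + t • w)
        (fderiv ℝ (gauge K) x w) 0 :=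
      HasFDerivAt.comp_hasDerivAt (0 : ℝ) hF' hline
    have hcomp : HasDerivAt (fun t : ℝ => gauge K (x + t • w))
        (fderiv ℝ (gauge K) x w) 0 := hcomp0
    have hval : fderiv ℝ (gauge K) x w = w ⬝ᵥ p := fderiv_gauge_apply hd w
    rw [hval] at hcomp
    have hslope := hcomp.tendsto_slope_zero_right
    have hev : ∀ᶠ t in 𝓝[>] (0 : ℝ),
        t⁻¹ • (gauge K (x + (0 + t) • w) - gauge K (x + (0 : ℝ) • w)) < 0 :=
      hslope.eventually (gt_mem_nhds hw)
    obtain ⟨t, htneg, htpos⟩ := (hev.and self_mem_nhdsWithin).exists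
    have htpos' : 0 < t := htpos
    rw [zero_add, hx0, smul_eq_mul] at htneg
    have hlt : gauge K (x + t • w) < g := by
      by_contra hge
      push Not at hge
      have : 0 ≤ t⁻¹ * (gauge K (x + t • w) - g) :=
        mul_nonneg (inv_nonneg.2 htpos'.le) (sub_nonneg.2 hge)
      linarith
    have hzmem : g⁻¹ • (x + t • w) ∈ K := by
      refine (hK.mem_iff).2 ?_
      rw [hgauge_smul _ _ (inv_nonneg.2 hg.le)]
      rw [inv_mul_le_iff₀ hg]
      linarith
    have h4 := hzK _ hzmem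
    rw [← htight, smul_dotProduct, add_dotProduct, smul_dotProduct, smul_eq_mul, smul_eq_mul,
      hy, smul_dotProduct, smul_eq_mul] at h4
    have h5 : g⁻¹ * (x ⬝ᵥ u₀ + t * (w ⬝ᵥ u₀)) ≤ g⁻¹ * (x ⬝ᵥ u₀) := h4
    have h6 := le_of_mul_le_mul_left h5 (inv_pos.2 hg)
    have h7 : t * (w ⬝ᵥ u₀) ≤ 0 := by linarith
    by_contra hcon
    push Not at hcon
    have : 0 < t * (w ⬝ᵥ u₀) := mul_pos htpos' hcon
    linarith
  -- so `u₀` is a positive multiple of `p`
  set a := p ⬝ᵥ p with ha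
  have hapos : 0 < a := dot_self_pos' hp0
  set b := u₀ ⬝ᵥ p with hb
  have hb0 : 0 ≤ b := by
    have h := hhalf (-p) (by rw [neg_dotProduct]; linarith)
    rw [neg_dotProduct, dotProduct_comm p u₀] at h
    linarith
  set lam := b / a with hlam
  set q : V n := u₀ - lam • p with hq
  have hqp : q ⬝ᵥ p = 0 := by
    rw [hq, sub_dotProduct, smul_dotProduct, smul_eq_mul, ← ha, ← hb, hlam]
    field_simp
    ring
  have hquq : u₀ ⬝ᵥ q = q ⬝ᵥ q := by
    have : u₀ = q + lam • p := by rw [hq]; abel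
    conv_lhs => rw [this]
    rw [add_dotProduct, smul_dotProduct, smul_eq_mul, dotProduct_comm p q, hqp]
    ring
  have hqq : q ⬝ᵥ q ≤ 0 := by
    by_contra hcon
    push Not at hcon
    -- take `ε` small
    have hbp : 0 < b + 1 := by linarith
    set ε := (q ⬝ᵥ q) / (2 * (b + 1)) with hε
    have hεpos : 0 < ε := by positivity
    have hwneg : (q - ε • p) ⬝ᵥ p < 0 := by
      rw [sub_dotProduct, hqp, smul_dotProduct, smul_eq_mul, ← ha]
      have : 0 < ε * a := mul_pos hεpos hapos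
      linarith
    have h8 := hhalf _ hwneg
    rw [sub_dotProduct, smul_dotProduct, smul_eq_mul, dotProduct_comm q u₀, hquq,
      dotProduct_comm p u₀, ← hb] at h8
    have h9 : ε * (2 * (b + 1)) = q ⬝ᵥ q := by
      rw [hε]
      field_simp
    nlinarith
  have hq0 : q = 0 := dotProduct_self_eq_zero.1 (le_antisymm hqq (dot_self_nonneg' q))
  have hu : u₀ = lam • p := by
    have : u₀ - lam • p = 0 := hq0
    exact sub_eq_zero.1 this
  have hlam0 : 0 ≤ lam := div_nonneg hb0 hapos.le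
  have hlampos : 0 < lam := by
    refine lt_of_le_of_ne hlam0 fun h => ?_
    rw [hu, ← h, zero_smul] at hu₀
    simp at hu₀
  have hf1 : f u₀ = lam * f p := by
    rw [hu]
    exact hhom lam p hlampos hp0
  have hf2 : y ⬝ᵥ u₀ = lam := by
    rw [hu, dotProduct_smul, smul_eq_mul, hy, smul_dotProduct, smul_eq_mul, hxp,
      inv_mul_cancel₀ hg.ne', mul_one]
  have : lam * f p = lam * 1 := by
    rw [← hf1, ← htight, hf2, mul_one]
  exact mul_left_cancel₀ hlampos.ne' this

end Vale.Agent.Lib.P227Z
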