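import Vale.Agent.Lib.P227Y.Pyr

/-!
# JOB Y4: the gauge and its gradient on the cones
-/

open MeasureTheory Set Filter Topology Matrix
open scoped Pointwise ENNReal Nat

namespace Vale.Agent.Lib.P227Z

variable {d m : ℕ}

private lemma phi_tuple_zero (g : Fin m → V (d + 1)) (τ : Fin d → Fin m) (j : Fin d) :
    phi g τ (g (τ j)) = 0 := by
  unfold phi dt
  apply Matrix.det_zero_of_row_eq (i := 0) (j := j.succ) (Fin.succ_ne_zero j).symm
  funext k
  simp [Matrix.of_apply]

private lemma dot_coneC (g : Fin m → V (d + 1)) (τ : Fin d → Fin m) (a : ℝ) (s : Fin d → ℝ) :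
    (a • apexV g τ + ∑ i, s i • g (τ i)) ⬝ᵥ nrm g τ = a * H g τ := by
  rw [add_dotProduct, smul_dotProduct, apexV_dot_nrm, sum_dotProduct, smul_eq_mul]
  rw [Finset.sum_eq_zero, add_zero]
  intro i _
  rw [smul_dotProduct, dot_nrm, phi_tuple_zero, smul_zero]

private lemma dot_le_H (g : Fin m → V (d + 1)) (τ : Fin d → Fin m) {z : V (d + 1)}
    (hz : z ∈ zonotope g) : z ⬝ᵥ nrm g τ ≤ H g τ := by
  have hb : BddAbove ((fun x => x ⬝ᵥ nrm g τ) '' zonotope g) :=
    (isCompact_zonotope g).bddAbove_image (by unfold dotProduct; fun_prop)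
  have := le_csSup hb ⟨z, hz, rfl⟩
  have h2 := supp_zonotope_nrm g τ
  unfold supp at h2
  rwa [h2] at this

/-- On the cone the gauge of the zonotope is the linear function `x · nrm / H`.
(`x = a • apex + ∑ s i • g (τ i)`, so `x · nrm = a H`; `x ∈ a • Z` gives `gauge ≤ a`, and
`z · nrm ≤ H` on `Z` gives `a H = x · nrm ≤ gauge x * H`.) -/
theorem gauge_on_coneC (g : Fin m → V (d + 1)) {τ : Fin d → Fin m} (hτ : Function.Injective τ)
    (hZ : Body (zonotope g)) (hpos : 0 < H g τ) {x : V (d + 1)} (hx : x ∈ coneC g τ) :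
    gauge (zonotope g) x = x ⬝ᵥ nrm g τ / H g τ := by
  have hx' := hx
  obtain ⟨a, s, ha0, ha1, hs, rfl⟩ := hx'
  rw [dot_coneC, mul_div_assoc, div_self hpos.ne', mul_one]
  apply le_antisymm
  · -- `x ∈ a • Z`
    by_cases ha : a = 0
    · subst ha
      have hs0 : ∀ i, s i = 0 := fun i => by
        have := hs i
        exact abs_nonpos_iff.1 this
      simp [hs0, gauge_zero]
    · have hapos : 0 < a := lt_of_le_of_ne ha0 (Ne.symm ha)
      refine gauge_le_of_mem ha0 ?_
      rw [mem_smul_set_iff_inv_smul_mem₀ ha]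
      refine coneC_subset g hτ ⟨1, fun i => a⁻¹ * s i, zero_le_one, le_refl _, ?_, ?_⟩
      · intro i
        rw [abs_mul, abs_of_pos (inv_pos.2 hapos), inv_mul_le_iff₀ hapos, mul_one]
        exact hs i
      · rw [smul_add, smul_smul, inv_mul_cancel₀ ha, Finset.smul_sum]
        simp [smul_smul]
  · -- `a H = x · nrm ≤ gauge x * H`
    set y := a • apexV g τ + ∑ i, s i • g (τ i) with hy
    have hdot : y ⬝ᵥ nrm g τ = a * H g τ := dot_coneC g τ a s
    by_cases hy0 : y = 0
    · rw [hy0, dotProduct_comm] at hdot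
      simp only [dotProduct_zero] at hdot
      have : a = 0 := by
        have := mul_eq_zero.1 hdot.symm
        exact this.resolve_right hpos.ne'
      rw [this]
      exact gauge_nonneg _
    · have hgp := hZ.gauge_pos hy0
      have hmem : (gauge (zonotope g) y)⁻¹ • y ∈ zonotope g := by
        rw [hZ.mem_iff, gauge_smul_of_nonneg (inv_nonneg.2 hgp.le), smul_eq_mul,
          inv_mul_cancel₀ hgp.ne']
      have hle := dot_le_H g τ hmem
      rw [smul_dotProduct, smul_eq_mul, hdot] at hle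
      have : a * H g τ ≤ gauge (zonotope g) y * H g τ := by
        rw [inv_mul_le_iff₀ hgp] at hle
        linarith
      exact le_of_mul_le_mul_right this hpos

private lemma gaugeGrad_of_eventuallyEq {n : ℕ} {K : Set (V n)} {x w : V n}
    (h : gauge K =ᶠ[𝓝 x] fun y => y ⬝ᵥ w) : gaugeGrad K x = w := by
  let lf : V n →L[ℝ] ℝ :=
    LinearMap.toContinuousLinearMap
      { toFun := fun y => y ⬝ᵥ w
        map_add' := fun a b => add_dotProduct _ _ _
        map_smul' := fun a b => by simp [smul_dotProduct] }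
  have hl : HasFDerivAt (fun y : V n => y ⬝ᵥ w) lf x := lf.hasFDerivAt
  have hd : fderiv ℝ (gauge K) x = lf := (hl.congr_of_eventuallyEq h).fderiv
  funext i
  simp only [gaugeGrad]
  rw [hd]
  show (Pi.single i 1 : V n) ⬝ᵥ w = w i
  simp

theorem grad_on_coneC (g : Fin m → V (d + 1)) {τ : Fin d → Fin m} (hτ : Function.Injective τ)
    (hZ : Body (zonotope g)) (hpos : 0 < H g τ) {x : V (d + 1)} (hx : x ∈ interior (coneC g τ)) :
    gaugeGrad (zonotope g) x = (1 / H g τ) • nrm g τ := by
  apply gaugeGrad_of_eventuallyEq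
  filter_upwards [mem_interior_iff_mem_nhds.1 hx] with y hy
  rw [gauge_on_coneC g hτ hZ hpos hy, dotProduct_smul, smul_eq_mul]
  ring

theorem grad_on_neg_coneC (g : Fin m → V (d + 1)) {τ : Fin d → Fin m} (hτ : Function.Injective τ)
    (hZ : Body (zonotope g)) (hpos : 0 < H g τ) {x : V (d + 1)}
    (hx : x ∈ interior (-(coneC g τ))) :
    gaugeGrad (zonotope g) x = -((1 / H g τ) • nrm g τ) := by
  apply gaugeGrad_of_eventuallyEq
  filter_upwards [mem_interior_iff_mem_nhds.1 hx] with y hy
  have hy' : -y ∈ coneC g τ := Set.mem_neg.1 hy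
  have h1 := gauge_on_coneC g hτ hZ hpos hy'
  have h2 : gauge (zonotope g) (-y) = gauge (zonotope g) y := gauge_neg hZ.symm y
  rw [← h2, h1, neg_dotProduct, dotProduct_neg, dotProduct_smul, smul_eq_mul]
  ring

end Vale.Agent.Lib.P227Z
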