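import Vale.Agent.Lib.P227Y.Pyr

/-!
# JOB Y5: from ordered tuples to subsets; general position
-/

open MeasureTheory Set Filter Topology Matrix
open scoped Pointwise ENNReal Nat

namespace Vale.Agent.Lib.P227Z

variable {d m : ℕ}

/-- The increasing tuple with image `S`. -/
noncomputable def canon (S : {S : Finset (Fin m) // S.card = d}) : Fin d → Fin m :=
  S.1.orderEmbOfFin S.2

theorem canon_injective (S : {S : Finset (Fin m) // S.card = d}) : Function.Injective (canon S) :=
  (S.1.orderEmbOfFin S.2).injective

private lemma range_canon (S : {S : Finset (Fin m) // S.card = d}) :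
    Set.range (canon S) = (S.1 : Set (Fin m)) :=
  Finset.range_orderEmbOfFin S.1 S.2

private lemma canon_mem (S : {S : Finset (Fin m) // S.card = d}) (i : Fin d) : canon S i ∈ S.1 := by
  have : canon S i ∈ Set.range (canon S) := ⟨i, rfl⟩
  rw [range_canon] at this
  exact this

private lemma mem_canon (S : {S : Finset (Fin m) // S.card = d}) {r : Fin m} (hr : r ∈ S.1) :
    ∃ i, canon S i = r := by
  have : r ∈ Set.range (canon S) := by
    rw [range_canon]
    exact hr
  exact this

/-- Sum over tuples, for a function invariant under permutations and vanishing on non-injective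
tuples, is `d!` times the sum over the `d`-subsets. -/
theorem sum_tuples (F : (Fin d → Fin m) → ℝ)
    (hperm : ∀ (τ : Fin d → Fin m) (π : Equiv.Perm (Fin d)), F (τ ∘ π) = F τ)
    (hinj : ∀ τ : Fin d → Fin m, ¬ Function.Injective τ → F τ = 0) :
    ∑ τ, F τ = (d ! : ℝ) * ∑ S : {S : Finset (Fin m) // S.card = d}, F (canon S) := by
  classical
  have h1 : ∑ τ, F τ = ∑ τ ∈ Finset.univ.filter (fun τ : Fin d → Fin m => Function.Injective τ), F τ := by
    refine (Finset.sum_subset (Finset.filter_subset _ _) ?_).symm
    intro τ _ hτ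
    exact hinj τ (by simpa using hτ)
  have h2 : ∑ p : {S : Finset (Fin m) // S.card = d} × Equiv.Perm (Fin d), F (canon p.1 ∘ p.2) =
      ∑ τ ∈ Finset.univ.filter (fun τ : Fin d → Fin m => Function.Injective τ), F τ := by
    refine Finset.sum_bij (fun p _ => canon p.1 ∘ p.2) ?_ ?_ ?_ ?_
    · intro p _
      simp only [Finset.mem_filter, Finset.mem_univ, true_and]
      exact (canon_injective p.1).comp p.2.injective
    · rintro ⟨S, π⟩ _ ⟨S', π'⟩ _ h
      simp only at h
      have hS : S = S' := by
        apply Subtype.ext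
        ext r
        constructor
        · intro hr
          obtain ⟨i, hi⟩ := mem_canon S hr
          have e : (canon S ∘ π) (π.symm i) = (canon S' ∘ π') (π.symm i) := by rw [h]
          simp only [Function.comp, Equiv.apply_symm_apply] at e
          rw [← hi, e]
          exact canon_mem S' _
        · intro hr
          obtain ⟨i, hi⟩ := mem_canon S' hr
          have e : (canon S ∘ π) (π'.symm i) = (canon S' ∘ π') (π'.symm i) := by rw [h]
          simp only [Function.comp, Equiv.apply_symm_apply] at e
          rw [← hi, ← e]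
          exact canon_mem S _
      subst hS
      have hπ : π = π' := by
        ext i
        have e : (canon S ∘ π) i = (canon S ∘ π') i := by rw [h]
        exact congrArg _ (canon_injective S e)
      subst hπ
      rfl
    · intro τ hτ
      simp only [Finset.mem_filter, Finset.mem_univ, true_and] at hτ
      have hcard : (Finset.univ.image τ).card = d := by
        rw [Finset.card_image_of_injective _ hτ, Finset.card_univ, Fintype.card_fin]
      let S : {S : Finset (Fin m) // S.card = d} := ⟨Finset.univ.image τ, hcard⟩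
      have hex : ∀ i, ∃ j, canon S j = τ i := fun i =>
        mem_canon S (Finset.mem_image_of_mem τ (Finset.mem_univ i))
      choose f hf using hex
      have hfinj : Function.Injective f := by
        intro a b hab
        apply hτ
        rw [← hf a, ← hf b, hab]
      have hfbij : Function.Bijective f := Finite.injective_iff_bijective.1 hfinj
      refine ⟨(S, Equiv.ofBijective f hfbij), Finset.mem_univ _, ?_⟩
      funext i
      simp [hf]
    · intro p _
      rfl
  rw [h1, ← h2, Fintype.sum_prod_type]
  have h3 : ∀ S : {S : Finset (Fin m) // S.card = d},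
      ∑ π : Equiv.Perm (Fin d), F (canon S ∘ π) = (d ! : ℝ) * F (canon S) := by
    intro S
    simp only [hperm, Finset.sum_const, Finset.card_univ, Fintype.card_perm, Fintype.card_fin,
      nsmul_eq_mul]
  simp only [h3, Finset.mul_sum]

/-- The extension of a permutation of `Fin d` to `Fin (d + 1)` fixing `0`. -/
private noncomputable def ext0 (π : Equiv.Perm (Fin d)) : Equiv.Perm (Fin (d + 1)) :=
  Equiv.Perm.decomposeFin.symm (0, π)

private lemma cons_perm (g : Fin m → V (d + 1)) (τ : Fin d → Fin m) (π : Equiv.Perm (Fin d))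
    (x : V (d + 1)) :
    (Matrix.of (Fin.cons x fun j => g ((τ ∘ π) j)) : Matrix (Fin (d + 1)) (Fin (d + 1)) ℝ) =
      (Matrix.of (Fin.cons x fun j => g (τ j))).submatrix (ext0 π) id := by
  ext i j
  refine Fin.cases ?_ (fun k => ?_) i
  · simp [ext0, Equiv.Perm.decomposeFin_symm_apply_zero]
  · simp [ext0, Equiv.Perm.decomposeFin_symm_apply_succ]

/-- `phi` with permuted tuple is `±` phi. -/
theorem phi_perm (g : Fin m → V (d + 1)) (τ : Fin d → Fin m) (π : Equiv.Perm (Fin d)) :
    ∃ e : ℝ, (e = 1 ∨ e = -1) ∧ ∀ x, phi g (τ ∘ π) x = e * phi g τ x := by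
  refine ⟨((Equiv.Perm.sign (ext0 π) : ℤˣ) : ℤ), ?_, ?_⟩
  · rcases Int.units_eq_one_or (Equiv.Perm.sign (ext0 π)) with h | h <;> simp [h]
  · intro x
    unfold phi dt
    rw [cons_perm g τ π x, Matrix.det_permute]

theorem H_perm (g : Fin m → V (d + 1)) (τ : Fin d → Fin m) (π : Equiv.Perm (Fin d)) :
    H g (τ ∘ π) = H g τ := by
  obtain ⟨e, he, h⟩ := phi_perm g τ π
  unfold H
  refine Finset.sum_congr rfl fun r _ => ?_
  rw [h, abs_mul]
  rcases he with rfl | rfl <;> simp

theorem nrm_perm (g : Fin m → V (d + 1)) (τ : Fin d → Fin m) (π : Equiv.Perm (Fin d)) :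
    nrm g (τ ∘ π) = nrm g τ ∨ nrm g (τ ∘ π) = -nrm g τ := by
  obtain ⟨e, he, h⟩ := phi_perm g τ π
  rcases he with rfl | rfl
  · left
    funext i
    simp only [nrm]
    rw [h]
    simp
  · right
    funext i
    simp only [nrm, Pi.neg_apply]
    rw [h]
    simp

private lemma phi_eq_zero_of_not_injective (g : Fin m → V (d + 1)) {τ : Fin d → Fin m}
    (hτ : ¬ Function.Injective τ) (x : V (d + 1)) : phi g τ x = 0 := by
  rw [Function.Injective] at hτ
  push Not at hτ
  obtain ⟨a, b, hab, hne⟩ := hτ
  unfold phi dt
  refine Matrix.det_zero_of_row_eq (i := a.succ) (j := b.succ) ?_ ?_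
  · simpa using hne
  · funext k
    simp [hab]

theorem H_not_injective (g : Fin m → V (d + 1)) {τ : Fin d → Fin m} (hτ : ¬ Function.Injective τ) :
    H g τ = 0 := by
  unfold H
  refine Finset.sum_eq_zero fun r _ => ?_
  rw [phi_eq_zero_of_not_injective g hτ, abs_zero]

/-- Positive volume forces at least `d + 1` generators. -/
theorem card_of_volume_pos (g : Fin m → V (d + 1)) (hZ : 0 < volume (zonotope g)) : d + 1 ≤ m := by
  by_contra hlt
  push Not at hlt
  have hD : D g = 0 := by
    unfold D
    refine Finset.sum_eq_zero fun σ _ => ?_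
    have hσ : ¬ Function.Injective σ := by
      intro hinj
      have := Fintype.card_le_of_injective σ hinj
      simp only [Fintype.card_fin] at this
      omega
    rw [Function.Injective] at hσ
    push Not at hσ
    obtain ⟨a, b, hab, hne⟩ := hσ
    have : dt (fun j => g (σ j)) = 0 := by
      unfold dt
      refine Matrix.det_zero_of_row_eq hne ?_
      funext k
      simp [hab]
    rw [this, abs_zero]
  have hv := volume_zonotope (d + 1) g
  rw [hD, mul_zero] at hv
  have hfin : volume (zonotope g) ≠ ∞ := (isCompact_zonotope g).measure_lt_top.ne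
  have hpos : 0 < (volume (zonotope g)).toReal := ENNReal.toReal_pos hZ.ne' hfin
  rw [hv] at hpos
  exact lt_irrefl _ hpos

private lemma exists_notMem_range (hm : d + 1 ≤ m) (τ : Fin d → Fin m) : ∃ r, r ∉ Set.range τ := by
  by_contra hcon
  push Not at hcon
  have hsurj : Function.Surjective τ := fun r => hcon r
  have := Fintype.card_le_of_surjective τ hsurj
  simp only [Fintype.card_fin] at this
  omega

private lemma Generic.phi_ne_zero {g : Fin m → V (d + 1)} (hg : Generic g)
    {τ : Fin d → Fin m} (hτ : Function.Injective τ) {r : Fin m} (hr : r ∉ Set.range τ) :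
    phi g τ (g r) ≠ 0 := by
  have hσ : Function.Injective (Fin.cons r τ : Fin (d + 1) → Fin m) := by
    refine Fin.cons_injective_iff.2 ⟨?_, hτ⟩
    exact hr
  have h := hg _ hσ
  unfold phi
  convert h using 2
  funext j
  refine Fin.cases ?_ (fun k => ?_) j <;> simp

/-- In general position every injective tuple has `H > 0` (if there are at least `d + 1` generators). -/
theorem Generic.H_pos {g : Fin m → V (d + 1)} (hg : Generic g) (hm : d + 1 ≤ m)
    {τ : Fin d → Fin m} (hτ : Function.Injective τ) : 0 < H g τ := by
  obtain ⟨r, hr⟩ := exists_notMem_range hm τ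
  have h1 := abs_pos.2 (hg.phi_ne_zero hτ hr)
  have h2 : |phi g τ (g r)| ≤ H g τ := by
    unfold H
    exact Finset.single_le_sum (f := fun r => |phi g τ (g r)|) (fun _ _ => abs_nonneg _)
      (Finset.mem_univ r)
  linarith

private lemma phi_mem_zero (g : Fin m → V (d + 1)) (τ : Fin d → Fin m) (j : Fin d) :
    phi g τ (g (τ j)) = 0 := by
  unfold phi dt
  refine Matrix.det_zero_of_row_eq (i := 0) (j := j.succ) (Fin.succ_ne_zero j).symm ?_
  funext k
  simp

/-- In general position two different `d`-subsets have non-parallel normals. -/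
theorem Generic.nrm_not_parallel {g : Fin m → V (d + 1)} (hg : Generic g)
    {S T : {S : Finset (Fin m) // S.card = d}} (hST : S ≠ T) (hm : d + 1 ≤ m) (c : ℝ) :
    nrm g (canon S) ≠ c • nrm g (canon T) := by
  intro h
  have hnot : ¬ T.1 ⊆ S.1 := by
    intro hsub
    apply hST
    apply Subtype.ext
    exact (Finset.eq_of_subset_of_card_le hsub (by rw [S.2, T.2])).symm
  obtain ⟨t, htT, htS⟩ := Finset.not_subset.1 hnot
  have hr : t ∉ Set.range (canon S) := by
    rw [range_canon]
    exact htS
  have h1 := hg.phi_ne_zero (canon_injective S) hr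
  apply h1
  rw [← dot_nrm, h, dotProduct_smul, dot_nrm]
  obtain ⟨i, hi⟩ := mem_canon T htT
  rw [← hi, phi_mem_zero, smul_zero]

theorem Generic.nrm_ne_zero {g : Fin m → V (d + 1)} (hg : Generic g) (hm : d + 1 ≤ m)
    {τ : Fin d → Fin m} (hτ : Function.Injective τ) : nrm g τ ≠ 0 := by
  intro h
  obtain ⟨r, hr⟩ := exists_notMem_range hm τ
  apply hg.phi_ne_zero hτ hr
  rw [← dot_nrm, h, dotProduct_zero]

end Vale.Agent.Lib.P227Z
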