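import Vale.Agent.Lib.P227Z.H_Q1

/-!
# Log-Minkowski inequality at zonoids: definitions and basic facts on `supp`

`gaugeGrad K x` is the vector of partial derivatives of the gauge of `K` at `x`.  At almost every
`x ∈ K` it is the outer normal `ν` of `K` at the boundary point `x / gauge K x`, normalised by
`h_K (ν) = 1`, so the image of Lebesgue measure on `K` under `gaugeGrad K` is the cone-volume measure.
-/

open MeasureTheory Set Filter Topology Matrix
open scoped Pointwise ENNReal Nat

namespace Vale.Agent.Lib.P227Z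

/-- The vector of partial derivatives of the gauge of `K` at `x`. -/
noncomputable def gaugeGrad {n : ℕ} (K : Set (V n)) (x : V n) : V n :=
  fun i => fderiv ℝ (gauge K) x (Pi.single i 1)

/-- A zonoid: a compact convex origin-symmetric set which is a Hausdorff limit of zonotopes
(for every `ε > 0` some zonotope and `K` lie in each other's closed `ε`-neighbourhoods). -/
def IsZonoid {n : ℕ} (K : Set (V n)) : Prop :=
  IsCompact K ∧ Convex ℝ K ∧ (∀ x ∈ K, -x ∈ K) ∧
    ∀ ε : ℝ, 0 < ε → ∃ (m : ℕ) (g : Fin m → V n),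
      zonotope g ⊆ Metric.cthickening ε K ∧ K ⊆ Metric.cthickening ε (zonotope g)

/-- Working class: compact convex symmetric neighbourhood of the origin. -/
structure Body {n : ℕ} (K : Set (V n)) : Prop where
  compact : IsCompact K
  convex : Convex ℝ K
  symm : ∀ x ∈ K, -x ∈ K
  nhds : K ∈ 𝓝 (0 : V n)

/-- All generators in general position: every `n` distinct generators are independent. -/
def Generic {d m : ℕ} (g : Fin m → V (d + 1)) : Prop :=
  ∀ σ : Fin (d + 1) → Fin m, Function.Injective σ → dt (fun j => g (σ j)) ≠ 0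

/-- The sandwiching of `K` by a sequence `Z j`. -/
structure Approx {n : ℕ} (K : Set (V n)) (Z : ℕ → Set (V n)) (c : ℕ → ℝ) : Prop where
  body : Body K
  bodyZ : ∀ j, Body (Z j)
  cnn : ∀ j, 0 ≤ c j
  cle : ∀ j, c j ≤ 1 / 2
  clim : Tendsto c atTop (𝓝 0)
  sub1 : ∀ j, Z j ⊆ (1 + c j) • K
  sub2 : ∀ j, (1 - c j) • K ⊆ Z j

/-! ### Public versions of the facts on `supp` (the ones in `H_Q1` are private) -/

theorem supp_continuous' {n : ℕ} {K : Set (V n)} (hK : IsCompact K) : Continuous (supp K) := by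
  unfold supp
  refine IsCompact.continuous_sSup (f := fun (u x : V n) => x ⬝ᵥ u) hK ?_
  unfold dotProduct
  simp only [Function.HasUncurry.uncurry, id]
  fun_prop

theorem supp_smul' {n : ℕ} (K : Set (V n)) {c : ℝ} (hc : 0 < c) (v : V n) :
    supp K (c • v) = c * supp K v := by
  unfold supp
  have : (fun x => x ⬝ᵥ c • v) '' K = c • ((fun x => x ⬝ᵥ v) '' K) := by
    ext y
    simp only [mem_image, mem_smul_set]
    constructor
    · rintro ⟨x, hx, rfl⟩
      exact ⟨_, ⟨x, hx, rfl⟩, by simp [dotProduct_smul]⟩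
    · rintro ⟨_, ⟨x, hx, rfl⟩, rfl⟩
      exact ⟨x, hx, by simp [dotProduct_smul]⟩
  rw [this, Real.sSup_smul_of_nonneg hc.le, smul_eq_mul]

theorem supp_pos' {n : ℕ} {K : Set (V n)} (hK : SymB K) {v : V n} (hv : v ≠ 0) :
    0 < supp K v := by
  obtain ⟨hc, hs, hp⟩ := hK
  have hcl : Continuous fun x : V n => x ⬝ᵥ v := by
    unfold dotProduct
    fun_prop
  have hbd : BddAbove ((fun x => x ⬝ᵥ v) '' K) :=
    hc.bddAbove_image hcl.continuousOn
  by_contra hle
  push Not at hle
  have hall : ∀ x ∈ K, x ⬝ᵥ v = 0 := by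
    intro x hx
    have h1 : x ⬝ᵥ v ≤ supp K v := le_csSup hbd ⟨x, hx, rfl⟩
    have h2 : (-x) ⬝ᵥ v ≤ supp K v := le_csSup hbd ⟨-x, hs x hx, rfl⟩
    rw [neg_dotProduct] at h2
    linarith
  let lf : V n →ₗ[ℝ] ℝ :=
    { toFun := fun x => x ⬝ᵥ v
      map_add' := fun x y => add_dotProduct _ _ _
      map_smul' := fun a x => by simp [smul_dotProduct] }
  have hker : LinearMap.ker lf ≠ ⊤ := by
    intro htop
    have h1 : v ∈ LinearMap.ker lf := by rw [htop]; trivial
    exact hv (dotProduct_self_eq_zero.1 h1)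
  have h0 : volume ((LinearMap.ker lf : Submodule ℝ (V n)) : Set (V n)) = 0 :=
    Measure.addHaar_submodule volume _ hker
  have hsub : K ⊆ (LinearMap.ker lf : Submodule ℝ (V n)) := fun x hx => hall x hx
  exact hp.ne' (measure_mono_null hsub h0)

end Vale.Agent.Lib.P227Z
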