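import Vale.Agent.Lib.P227Y.Defs

/-!
# JOB Y1: basic facts on the gauge of a body
-/

open MeasureTheory Set Filter Topology Matrix
open scoped Pointwise ENNReal Nat

namespace Vale.Agent.Lib.P227Z

variable {n : ℕ} {K : Set (V n)} {x : V n}

/-- Compact convex symmetric of positive volume: the origin is an interior point. -/
theorem Body.of_pos (hc : IsCompact K) (hv : Convex ℝ K) (hs : ∀ x ∈ K, -x ∈ K)
    (hp : 0 < volume K) : Body K := by
  refine ⟨hc, hv, hs, ?_⟩
  have hint : (interior K).Nonempty := by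
    by_contra hne
    rw [Set.not_nonempty_iff_eq_empty] at hne
    have hfr : volume (frontier K) = 0 := hv.addHaar_frontier volume
    have hsub : K ⊆ frontier K := by
      intro y hy
      rw [frontier, hne, Set.sdiff_empty]
      exact subset_closure hy
    exact hp.ne' (measure_mono_null hsub hfr)
  obtain ⟨y, hy⟩ := hint
  have hneg : -y ∈ interior K := by
    have hop : IsOpen (Neg.neg ⁻¹' interior K : Set (V n)) := isOpen_interior.preimage continuous_neg
    have hsub : (Neg.neg ⁻¹' interior K : Set (V n)) ⊆ K := by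
      intro z hz
      have : -z ∈ K := interior_subset hz
      simpa using hs _ this
    refine mem_interior.2 ⟨_, hsub, hop, ?_⟩
    simpa using hy
  have h0 : (0 : V n) ∈ interior K := by
    have := hv.interior hy hneg (a := 1 / 2) (b := 1 / 2) (by norm_num) (by norm_num) (by norm_num)
    simpa [smul_neg] using this
  exact mem_interior_iff_mem_nhds.1 h0

/-- Body of zonoid with positive volume. -/
theorem Body.of_zonoid (hK : IsZonoid K) (hp : 0 < volume K) : Body K :=
  Body.of_pos hK.1 hK.2.1 hK.2.2.1 hp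

/-- A body has positive volume. -/
theorem Body.volume_pos (hK : Body K) : 0 < volume K :=
  Measure.measure_pos_of_mem_nhds volume hK.nhds

theorem Body.symB (hK : Body K) : SymB K := ⟨hK.compact, hK.symm, hK.volume_pos⟩

/-- Rademacher: the gauge is differentiable almost everywhere (`Convex.lipschitz_gauge`,
`LipschitzWith.ae_differentiableAt`). -/
theorem Body.ae_diff (hK : Body K) : ∀ᵐ x ∂(volume : Measure (V n)), DifferentiableAt ℝ (gauge K) x := by
  obtain ⟨C, hC⟩ := hK.convex.lipschitz_gauge hK.nhds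
  exact hC.ae_differentiableAt

theorem fderiv_gauge_apply (_hd : DifferentiableAt ℝ (gauge K) x) (y : V n) :
    fderiv ℝ (gauge K) x y = y ⬝ᵥ gaugeGrad K x := by
  have hy : y = ∑ i, y i • (Pi.single i 1 : V n) := by
    funext j
    simp [Finset.sum_apply, Pi.single_apply]
  conv_lhs => rw [hy]
  rw [map_sum]
  simp only [map_smul, dotProduct, gaugeGrad, smul_eq_mul]

private lemma hasDerivAt_line (hd : DifferentiableAt ℝ (gauge K) x) (y : V n) :
    HasDerivAt (fun s : ℝ => gauge K (x + s • y)) (fderiv ℝ (gauge K) x y) 0 := by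
  have h1 : HasDerivAt (fun s : ℝ => x + s • y) y 0 := by
    simpa using ((hasDerivAt_id (0 : ℝ)).smul_const y).const_add x
  have h2 : HasFDerivAt (gauge K) (fderiv ℝ (gauge K) x) (x + (0 : ℝ) • y) := by
    simpa using hd.hasFDerivAt
  exact h2.comp_hasDerivAt (0 : ℝ) h1

/-- Euler's identity. -/
theorem Body.dot_grad_self (_hK : Body K) (hd : DifferentiableAt ℝ (gauge K) x) :
    x ⬝ᵥ gaugeGrad K x = gauge K x := by
  rw [← fderiv_gauge_apply hd x]
  have h1 := hasDerivAt_line hd x
  have h2 : HasDerivAt (fun s : ℝ => (1 + s) * gauge K x) (gauge K x) 0 := by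
    have := ((hasDerivAt_id (0 : ℝ)).const_add 1).mul_const (gauge K x)
    simpa using this
  have heq : (fun s : ℝ => gauge K (x + s • x)) =ᶠ[𝓝 0] fun s : ℝ => (1 + s) * gauge K x := by
    have : Ioi (-1 : ℝ) ∈ 𝓝 (0 : ℝ) := Ioi_mem_nhds (by norm_num)
    filter_upwards [this] with s hs
    have hs' : (0 : ℝ) ≤ 1 + s := by
      have := mem_Ioi.1 hs
      linarith
    have e : x + s • x = (1 + s) • x := by
      rw [add_smul, one_smul]
    rw [e, gauge_smul_of_nonneg hs', smul_eq_mul]
  exact h1.unique (h2.congr_of_eventuallyEq heq)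

/-- The gradient is a subgradient at the origin: `y · p ≤ gauge K y`. -/
theorem Body.dot_grad_le (hK : Body K) (hd : DifferentiableAt ℝ (gauge K) x) (y : V n) :
    y ⬝ᵥ gaugeGrad K x ≤ gauge K y := by
  rw [← fderiv_gauge_apply hd y]
  have h1 := hasDerivAt_line hd y
  have habs : Absorbent ℝ K := absorbent_nhds_zero hK.nhds
  have hslope := h1.tendsto_slope_zero_right
  refine le_of_tendsto hslope ?_
  filter_upwards [self_mem_nhdsWithin] with s hs
  have hs0 : (0 : ℝ) < s := hs
  have hle : gauge K (x + (0 + s) • y) ≤ gauge K x + s * gauge K y := by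
    have := gauge_add_le hK.convex habs x (s • y)
    rw [gauge_smul_of_nonneg hs0.le, smul_eq_mul] at this
    simpa only [zero_add] using this
  simp only [zero_smul, add_zero, smul_eq_mul]
  have : gauge K (x + (0 + s) • y) - gauge K x ≤ s * gauge K y := by linarith
  calc s⁻¹ * (gauge K (x + (0 + s) • y) - gauge K x) ≤ s⁻¹ * (s * gauge K y) := by
        exact mul_le_mul_of_nonneg_left this (inv_nonneg.2 hs0.le)
    _ = gauge K y := by field_simp

/-- Membership in a closed body via the gauge. -/
theorem Body.mem_iff (hK : Body K) : x ∈ K ↔ gauge K x ≤ 1 := by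
  rw [gauge_le_one_iff_mem_closure hK.convex hK.nhds, hK.compact.isClosed.closure_eq]

/-- The gauge of a body vanishes only at the origin. -/
theorem Body.gauge_pos (hK : Body K) (hx : x ≠ 0) : 0 < gauge K x := by
  have habs : Absorbent ℝ K := absorbent_nhds_zero hK.nhds
  have hb : Bornology.IsVonNBounded ℝ K := NormedSpace.isVonNBounded_iff ℝ |>.2 hK.compact.isBounded
  exact (_root_.gauge_pos habs hb).2 hx

/-- `h_K (p) = 1` at every differentiability point `x ≠ 0`. -/
theorem Body.supp_grad (hK : Body K) (hd : DifferentiableAt ℝ (gauge K) x) (hx : x ≠ 0) :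
    supp K (gaugeGrad K x) = 1 := by
  unfold supp
  refine IsGreatest.csSup_eq ⟨?_, ?_⟩
  · have hg := hK.gauge_pos hx
    refine ⟨(gauge K x)⁻¹ • x, ?_, ?_⟩
    · rw [hK.mem_iff, gauge_smul_of_nonneg (inv_nonneg.2 hg.le), smul_eq_mul,
        inv_mul_cancel₀ hg.ne']
    · simp only [smul_dotProduct, smul_eq_mul]
      rw [hK.dot_grad_self hd, inv_mul_cancel₀ hg.ne']
  · rintro _ ⟨y, hy, rfl⟩
    exact (hK.dot_grad_le hd y).trans (hK.mem_iff.1 hy)

theorem Body.grad_ne_zero (hK : Body K) (hd : DifferentiableAt ℝ (gauge K) x) (hx : x ≠ 0) :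
    gaugeGrad K x ≠ 0 := by
  intro h
  have h1 := hK.dot_grad_self hd
  rw [h, dotProduct_zero] at h1
  exact (hK.gauge_pos hx).ne h1

theorem measurable_gaugeGrad (K : Set (V n)) : Measurable (gaugeGrad K) :=
  measurable_pi_iff.2 fun i => measurable_fderiv_apply_const ℝ (gauge K) (Pi.single i 1)

theorem Body.frontier_null (hK : Body K) : volume (frontier K) = 0 :=
  hK.convex.addHaar_frontier volume

/-- A symmetric compact `L` of positive volume is comparable to a body `K`:
`a * h_K ≤ h_L ≤ b * h_K` for some `0 < a ≤ b`. -/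
theorem supp_comparable (hK : Body K) {L : Set (V n)} (hL : SymB L) :
    ∃ a b : ℝ, 0 < a ∧ 0 < b ∧ ∀ v, a * supp K v ≤ supp L v ∧ supp L v ≤ b * supp K v := by
  have hKs := hK.symB
  have hz : ∀ {A : Set (V n)}, A.Nonempty → supp A 0 = 0 := by
    intro A hA
    unfold supp
    have : (fun x : V n => x ⬝ᵥ (0 : V n)) '' A = {0} := by
      ext y
      simp only [dotProduct_zero, mem_image, mem_singleton_iff]
      constructor
      · rintro ⟨_, _, rfl⟩; rfl
      · rintro rfl; obtain ⟨z, hz⟩ := hA; exact ⟨z, hz, rfl⟩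
    rw [this, csSup_singleton]
  have hLne : L.Nonempty := by
    by_contra hne
    rw [Set.not_nonempty_iff_eq_empty] at hne
    have := hL.2.2
    rw [hne, measure_empty] at this
    exact lt_irrefl _ this
  have hKne : K.Nonempty := ⟨0, mem_of_mem_nhds hK.nhds⟩
  have hcs : IsCompact (Metric.sphere (0 : V n) 1) := isCompact_sphere 0 1
  have hposS : ∀ v ∈ Metric.sphere (0 : V n) 1, v ≠ 0 := by
    intro v hv h0
    rw [h0] at hv
    simp at hv
  have hc : ContinuousOn (fun v => supp L v / supp K v) (Metric.sphere (0 : V n) 1) :=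
    ContinuousOn.div (supp_continuous' hL.1).continuousOn (supp_continuous' hK.compact).continuousOn
      fun v hv => (supp_pos' hKs (hposS v hv)).ne'
  by_cases hne : (Metric.sphere (0 : V n) 1).Nonempty
  · obtain ⟨u, hu, hmin⟩ := hcs.exists_isMinOn hne hc
    obtain ⟨w, hw, hmax⟩ := hcs.exists_isMaxOn hne hc
    have ha : 0 < supp L u / supp K u :=
      div_pos (supp_pos' hL (hposS u hu)) (supp_pos' hKs (hposS u hu))
    have hb : 0 < supp L w / supp K w :=
      div_pos (supp_pos' hL (hposS w hw)) (supp_pos' hKs (hposS w hw))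
    refine ⟨_, _, ha, hb, fun v => ?_⟩
    by_cases hv : v = 0
    · rw [hv, hz hKne, hz hLne]; simp
    · have hnv : 0 < ‖v‖ := norm_pos_iff.2 hv
      have hs : ‖v‖⁻¹ • v ∈ Metric.sphere (0 : V n) 1 := by
        simp [norm_smul, hnv.ne']
      have hv' : v = ‖v‖ • (‖v‖⁻¹ • v) := by
        rw [smul_smul, mul_inv_cancel₀ hnv.ne', one_smul]
      have h1 := hmin hs
      have h2 := hmax hs
      simp only [Set.mem_ofPred_eq] at h1 h2
      have hKp := supp_pos' hKs (hposS _ hs)
      rw [le_div_iff₀ hKp] at h1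
      rw [div_le_iff₀ hKp] at h2
      rw [hv', supp_smul' _ hnv, supp_smul' _ hnv]
      constructor
      · calc _ = ‖v‖ * ((supp L u / supp K u) * supp K (‖v‖⁻¹ • v)) := by ring
          _ ≤ _ := mul_le_mul_of_nonneg_left h1 hnv.le
      · calc _ ≤ ‖v‖ * ((supp L w / supp K w) * supp K (‖v‖⁻¹ • v)) :=
              mul_le_mul_of_nonneg_left h2 hnv.le
          _ = _ := by ring
  · refine ⟨1, 1, one_pos, one_pos, fun v => ?_⟩
    by_cases hv : v = 0
    · rw [hv, hz hKne, hz hLne]; simp
    · exfalso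
      apply hne
      have hnv : 0 < ‖v‖ := norm_pos_iff.2 hv
      exact ⟨‖v‖⁻¹ • v, by simp [norm_smul, hnv.ne']⟩

end Vale.Agent.Lib.P227Z
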