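import Vale.Agent.Lib.P227Y.Gauge

/-!
# JOB Y7: generators in general position; sandwiching a zonoid by generic zonotopes
-/

open MeasureTheory Set Filter Topology Matrix
open scoped Pointwise ENNReal Nat

namespace Vale.Agent.Lib.P227Z

variable {d m : ℕ}

/-- The moment curve. -/
private noncomputable def momC (d m : ℕ) (r : Fin m) : V (d + 1) := fun j => ((r : ℕ) : ℝ) ^ (j : ℕ)

private lemma dt_poly_ne (g : Fin m → V (d + 1)) (σ : Fin (d + 1) → Fin m)
    (hσ : Function.Injective σ) :
    ((Polynomial.X : Polynomial ℝ) • (Matrix.of fun j => momC d m (σ j)).map Polynomial.C +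
      (Matrix.of fun j => g (σ j)).map Polynomial.C).det ≠ (0 : Polynomial ℝ) := by
  intro h0
  have hc := Polynomial.coeff_det_X_add_C_card (Matrix.of fun j => momC d m (σ j))
    (Matrix.of fun j => g (σ j))
  rw [h0, Polynomial.coeff_zero] at hc
  have hv : (Matrix.of fun j => momC d m (σ j)) =
      Matrix.vandermonde (fun j => ((σ j : ℕ) : ℝ)) := by
    ext i j
    simp [momC, Matrix.vandermonde_apply]
  rw [hv] at hc
  have hinj : Function.Injective (fun j => ((σ j : ℕ) : ℝ)) := by
    intro a b hab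
    apply hσ
    have hab' : ((σ a : ℕ) : ℝ) = ((σ b : ℕ) : ℝ) := hab
    exact Fin.ext (by exact_mod_cast hab')
  exact (Matrix.det_vandermonde_ne_zero_iff.2 hinj) hc.symm

private lemma dt_eval (g : Fin m → V (d + 1)) (σ : Fin (d + 1) → Fin m) (t : ℝ) :
    dt (fun j => g (σ j) + t • momC d m (σ j)) =
      Polynomial.eval t ((Polynomial.X : Polynomial ℝ) • (Matrix.of fun j => momC d m (σ j)).map Polynomial.C +
        (Matrix.of fun j => g (σ j)).map Polynomial.C).det := by
  have h := RingHom.map_det (Polynomial.evalRingHom t)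
    ((Polynomial.X : Polynomial ℝ) • (Matrix.of fun j => momC d m (σ j)).map Polynomial.C +
        (Matrix.of fun j => g (σ j)).map Polynomial.C)
  rw [Polynomial.coe_evalRingHom] at h
  rw [h]
  unfold dt
  congr 1
  ext i j
  simp only [RingHom.mapMatrix_apply, Matrix.map_apply, Matrix.add_apply, Matrix.smul_apply,
    Matrix.of_apply, smul_eq_mul, Polynomial.coe_evalRingHom, Polynomial.eval_add,
    Polynomial.eval_mul, Polynomial.eval_X, Polynomial.eval_C, Pi.add_apply, Pi.smul_apply]
  ring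

/-- Perturb along the moment curve: `g r + t • (1, r, r², …)`. For each injective `σ` the determinant
is a polynomial in `t` with leading coefficient a nonzero Vandermonde determinant
(`Polynomial.coeff_det_X_add_C_card`), so all but finitely many `t` work. -/
theorem exists_generic (g : Fin m → V (d + 1)) {δ : ℝ} (hδ : 0 < δ) :
    ∃ g' : Fin m → V (d + 1), Generic g' ∧ ∀ r, ‖g' r - g r‖ ≤ δ := by
  classical
  -- bad parameters
  set P : (Fin (d + 1) → Fin m) → Polynomial ℝ := fun σ =>
    ((Polynomial.X : Polynomial ℝ) • (Matrix.of fun j => momC d m (σ j)).map Polynomial.C +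
      (Matrix.of fun j => g (σ j)).map Polynomial.C).det with hP
  set bad : Finset ℝ := (Finset.univ.filter fun σ : Fin (d + 1) → Fin m => Function.Injective σ).biUnion
    (fun σ => (P σ).roots.toFinset) with hbad
  set M : ℝ := ∑ r, ‖momC d m r‖ with hM
  have hM0 : 0 ≤ M := Finset.sum_nonneg fun _ _ => norm_nonneg _
  set t₀ : ℝ := δ / (M + 1) with ht₀
  have ht₀pos : 0 < t₀ := by positivity
  obtain ⟨t, ⟨ht0, htle⟩, htb⟩ := (Set.Ioc_infinite ht₀pos).exists_notMem_finset bad
  refine ⟨fun r => g r + t • momC d m r, ?_, ?_⟩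
  · intro σ hσ
    change dt (fun j => g (σ j) + t • momC d m (σ j)) ≠ 0
    rw [dt_eval]
    intro hroot
    apply htb
    rw [hbad, Finset.mem_biUnion]
    refine ⟨σ, by simp [hσ], ?_⟩
    rw [Multiset.mem_toFinset, Polynomial.mem_roots (dt_poly_ne g σ hσ)]
    exact hroot
  · intro r
    have h1 : ‖momC d m r‖ ≤ M :=
      Finset.single_le_sum (f := fun r => ‖momC d m r‖) (fun _ _ => norm_nonneg _) (Finset.mem_univ r)
    have h2 : g r + t • momC d m r - g r = t • momC d m r := by abel
    rw [h2, norm_smul, Real.norm_eq_abs, abs_of_pos ht0]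
    calc t * ‖momC d m r‖ ≤ t₀ * (M + 1) := by
          apply mul_le_mul htle (by linarith) (norm_nonneg _) ht₀pos.le
      _ = δ := by rw [ht₀]; field_simp

/-- Zonotopes with close generators are Hausdorff close. -/
theorem zonotope_subset_cthickening (g g' : Fin m → V (d + 1)) {δ : ℝ} (hδ : 0 ≤ δ)
    (h : ∀ r, ‖g' r - g r‖ ≤ δ) :
    zonotope g' ⊆ Metric.cthickening (m * δ) (zonotope g) := by
  rintro x ⟨t, ht, rfl⟩
  refine Metric.mem_cthickening_of_dist_le _ (∑ i, t i • g i) _ _ ⟨t, ht, rfl⟩ ?_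
  rw [dist_eq_norm, ← Finset.sum_sub_distrib]
  calc ‖∑ i, (t i • g' i - t i • g i)‖ ≤ ∑ i, ‖t i • g' i - t i • g i‖ := norm_sum_le _ _
    _ ≤ ∑ _i : Fin m, δ := by
        refine Finset.sum_le_sum fun i _ => ?_
        rw [← smul_sub, norm_smul, Real.norm_eq_abs]
        calc |t i| * ‖g' i - g i‖ ≤ 1 * δ := mul_le_mul (ht i) (h i) (norm_nonneg _) zero_le_one
          _ = δ := one_mul _
    _ = m * δ := by simp

/-- The zonotope is compact convex symmetric. -/
theorem zonotope_body_of_nhds (g : Fin m → V (d + 1)) (h : zonotope g ∈ 𝓝 (0 : V (d + 1))) :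
    Body (zonotope g) := by
  refine ⟨isCompact_zonotope g, convex_zonotope g, ?_, h⟩
  rintro x ⟨t, ht, rfl⟩
  refine ⟨fun i => - t i, fun i => by simpa using ht i, ?_⟩
  rw [← Finset.sum_neg_distrib]
  exact Finset.sum_congr rfl fun i _ => by rw [neg_smul]

/-- From Hausdorff closeness to sandwiching: if `K` is a body containing the closed ball of radius
`r > 0`, `Z` is compact convex and contains `0`, `Z ⊆ cthickening ε K`, `K ⊆ cthickening ε Z`,
`ε < r`, then `Z ⊆ (1 + ε / r) • K` and `(1 - ε / r) • K ⊆ Z`. For the second inclusion: iterate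
`K ⊆ Z + (ε / r) • K`, or use support functions and separation. -/
theorem sandwich_of_cthickening {K Z : Set (V (d + 1))} (hK : Body K) {r ε : ℝ} (hr : 0 < r)
    (hball : Metric.closedBall (0 : V (d + 1)) r ⊆ K) (hZc : IsCompact Z) (hZv : Convex ℝ Z)
    (hZ0 : (0 : V (d + 1)) ∈ Z) (hε : 0 ≤ ε) (hεr : ε < r) (h1 : Z ⊆ Metric.cthickening ε K)
    (h2 : K ⊆ Metric.cthickening ε Z) :
    Z ⊆ (1 + ε / r) • K ∧ (1 - ε / r) • K ⊆ Z := by
  classical
  set lam := ε / r with hlam
  have hlam0 : 0 ≤ lam := div_nonneg hε hr.le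
  have hlam1 : lam < 1 := (div_lt_one hr).2 hεr
  -- an error vector of norm at most `ε` is in `lam • K`
  have herr : ∀ e : V (d + 1), ‖e‖ ≤ ε → e ∈ lam • K := by
    intro e he
    by_cases h0 : ε = 0
    · have he0 : e = 0 := by
        rw [h0] at he
        exact norm_le_zero_iff.1 he
      refine ⟨0, hball (by simp [hr.le]), ?_⟩
      simp [he0]
    · have hεpos : 0 < ε := lt_of_le_of_ne hε (Ne.symm h0)
      have hlampos : 0 < lam := div_pos hεpos hr
      refine ⟨lam⁻¹ • e, hball ?_, ?_⟩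
      · rw [mem_closedBall_zero_iff, norm_smul, Real.norm_eq_abs, abs_of_pos (inv_pos.2 hlampos)]
        rw [hlam, inv_div]
        calc r / ε * ‖e‖ ≤ r / ε * ε := by gcongr
          _ = r := by field_simp
      · change lam • (lam⁻¹ • e) = e
        rw [smul_smul, mul_inv_cancel₀ hlampos.ne', one_smul]
  constructor
  · intro z hz
    have hz' := h1 hz
    rw [hK.compact.cthickening_eq_biUnion_closedBall hε] at hz'
    simp only [mem_iUnion, Metric.mem_closedBall, exists_prop] at hz'
    obtain ⟨k, hk, hd⟩ := hz'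
    rw [hK.convex.add_smul zero_le_one hlam0, one_smul]
    refine ⟨k, hk, z - k, herr _ ?_, by simp⟩
    rwa [← dist_eq_norm]
  · rintro _ ⟨k, hk, rfl⟩
    by_contra hnot
    have hnot' : (1 - lam) • k ∉ Z := hnot
    obtain ⟨ℓ, u, hℓ, hu⟩ := geometric_hahn_banach_closed_point hZv hZc.isClosed hnot'
    -- maximiser of `ℓ` on `K`
    have hne : K.Nonempty := ⟨k, hk⟩
    obtain ⟨kstar, hkstar, hmax⟩ := hK.compact.exists_isMaxOn hne ℓ.continuous.continuousOn
    have hkk := h2 hkstar
    rw [hZc.cthickening_eq_biUnion_closedBall hε] at hkk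
    simp only [mem_iUnion, Metric.mem_closedBall, exists_prop] at hkk
    obtain ⟨z, hz, hd⟩ := hkk
    obtain ⟨k', hk', hk'e⟩ := herr (kstar - z) (by rwa [← dist_eq_norm])
    have hk'e' : lam • k' = kstar - z := hk'e
    have h3 : ℓ kstar = ℓ z + lam * ℓ k' := by
      have : kstar = z + lam • k' := by rw [hk'e']; abel
      conv_lhs => rw [this]
      rw [map_add, map_smul, smul_eq_mul]
    have h4 : ℓ k' ≤ ℓ kstar := hmax hk'
    have h5 : ℓ k ≤ ℓ kstar := hmax hk
    have h6 := hℓ z hz
    have h7 : ℓ ((1 - lam) • k) = (1 - lam) * ℓ k := by rw [map_smul, smul_eq_mul]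
    rw [h7] at hu
    have h8 : (1 - lam) * ℓ k ≤ (1 - lam) * ℓ kstar :=
      mul_le_mul_of_nonneg_left h5 (by linarith)
    have h9 : lam * ℓ k' ≤ lam * ℓ kstar := mul_le_mul_of_nonneg_left h4 hlam0
    nlinarith

/-- Every zonoid of positive volume is sandwiched by generic zonotopes. -/
theorem exists_approx {K : Set (V (d + 1))} (hK : IsZonoid K) (hp : 0 < volume K) :
    ∃ (M : ℕ → ℕ) (G : ∀ j, Fin (M j) → V (d + 1)) (c : ℕ → ℝ),
      (∀ j, Generic (G j)) ∧ Approx K (fun j => zonotope (G j)) c := by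
  classical
  have hB : Body K := Body.of_zonoid hK hp
  obtain ⟨r, hr, hball⟩ := (Metric.nhds_basis_closedBall (x := (0 : V (d + 1)))).mem_iff.1 hB.nhds
  set ε : ℕ → ℝ := fun j => r / (4 * ((j : ℝ) + 1)) with hε
  have hεpos : ∀ j, 0 < ε j := fun j => by positivity
  have hchoice : ∀ j : ℕ, ∃ (m : ℕ) (g' : Fin m → V (d + 1)), Generic g' ∧
      zonotope g' ⊆ Metric.cthickening (2 * ε j) K ∧
      K ⊆ Metric.cthickening (2 * ε j) (zonotope g') := by
    intro j
    obtain ⟨m, g, hg1, hg2⟩ := hK.2.2.2 (ε j) (hεpos j)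
    have hδpos : 0 < ε j / ((m : ℝ) + 1) := div_pos (hεpos j) (by positivity)
    obtain ⟨g', hgen, hclose⟩ := exists_generic g hδpos
    have hmδ : (m : ℝ) * (ε j / ((m : ℝ) + 1)) ≤ ε j := by
      have hm : (0 : ℝ) ≤ m := Nat.cast_nonneg m
      rw [mul_div_assoc', div_le_iff₀ (by positivity)]
      nlinarith [hεpos j]
    have hclose' : ∀ r, ‖g r - g' r‖ ≤ ε j / ((m : ℝ) + 1) := fun r => by
      rw [norm_sub_rev]; exact hclose r
    have hs1 := zonotope_subset_cthickening g g' hδpos.le hclose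
    have hs2 := zonotope_subset_cthickening g' g hδpos.le hclose'
    refine ⟨m, g', hgen, ?_, ?_⟩
    · intro x hx
      have hx1 := Metric.cthickening_mono hmδ _ (hs1 hx)
      have hx2 := Metric.cthickening_subset_of_subset (ε j) hg1 hx1
      have hx3 := Metric.cthickening_cthickening_subset (hεpos j).le (hεpos j).le K hx2
      rwa [← two_mul] at hx3
    · intro x hx
      have hx1 := hg2 hx
      have hx2 := Metric.cthickening_subset_of_subset (ε j)
        (fun y hy => Metric.cthickening_mono hmδ _ (hs2 hy)) hx1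
      have hx3 := Metric.cthickening_cthickening_subset (hεpos j).le (hεpos j).le _ hx2
      rwa [← two_mul] at hx3
  choose M G hgen hsub1 hsub2 using hchoice
  refine ⟨M, G, fun j => 2 * ε j / r, hgen, ?_⟩
  have hcle : ∀ j, 2 * ε j / r ≤ 1 / 2 := by
    intro j
    have hj : (0 : ℝ) ≤ j := Nat.cast_nonneg j
    simp only [hε]
    rw [div_le_iff₀ hr]
    have : 2 * (r / (4 * ((j : ℝ) + 1))) = r / 2 * (1 / ((j : ℝ) + 1)) := by
      field_simp
      ring
    rw [this]
    have h1 : 1 / ((j : ℝ) + 1) ≤ 1 := by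
      rw [div_le_one (by positivity)]
      linarith
    nlinarith
  have hsand : ∀ j, zonotope (G j) ⊆ (1 + 2 * ε j / r) • K ∧
      (1 - 2 * ε j / r) • K ⊆ zonotope (G j) := by
    intro j
    have hlt : 2 * ε j < r := by
      have := hcle j
      rw [div_le_iff₀ hr] at this
      linarith
    exact sandwich_of_cthickening hB hr hball (isCompact_zonotope _) (convex_zonotope _)
      ⟨0, by simp, by simp⟩ (by have := hεpos j; linarith) hlt (hsub1 j) (hsub2 j)
  refine ⟨hB, fun j => ?_, fun j => ?_, hcle, ?_, fun j => (hsand j).1, fun j => (hsand j).2⟩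
  · refine zonotope_body_of_nhds _ ?_
    have hcpos : (1 - 2 * ε j / r) ≠ 0 := by
      have := hcle j
      linarith
    have h1 : (1 - 2 * ε j / r) • K ∈ 𝓝 ((1 - 2 * ε j / r) • (0 : V (d + 1))) :=
      smul_mem_nhds_smul₀ hcpos hB.nhds
    rw [smul_zero] at h1
    exact Filter.mem_of_superset h1 (hsand j).2
  · have := hεpos j
    positivity
  · -- `2 ε_j / r = (1/2) * 1 / (j + 1) → 0`
    have h1 : (fun j : ℕ => 2 * ε j / r) = fun j : ℕ => (1 / 2) * (1 / ((j : ℝ) + 1)) := by
      funext j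
      simp only [hε]
      field_simp
      ring
    rw [h1]
    have h2 := (tendsto_one_div_add_atTop_nhds_zero_nat (𝕜 := ℝ)).const_mul (1 / 2 : ℝ)
    simpa using h2

end Vale.Agent.Lib.P227Z
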