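import Vale.Agent.Lib.P227Y.ConeGauge
import Vale.Agent.Lib.P227Y.Count

/-!
# JOB Y6: the integral identity for generic zonotopes

The open sets `interior (± coneC g (canon S))` are pairwise disjoint (the gradient of the gauge differs
on them, `grad_on_coneC`, `grad_on_neg_coneC`, `Generic.nrm_not_parallel`), they lie in the zonotope
(`coneC_subset`) and their total volume is `(2^(d+1)/(d+1)) ∑_S H_S = (2^(d+1)/(d+1)!) ∑_τ H_τ = |Z|`
(`volume_coneC`, `volume_interior_coneC`, `sum_tuples`, `volume_zonotope`, `sum_H_eq_D`). Hence they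
cover `Z` up to a null set; on each of them the integrand is constant.
-/

open MeasureTheory Set Filter Topology Matrix
open scoped Pointwise ENNReal Nat

namespace Vale.Agent.Lib.P227Z

variable {d m : ℕ}

/-- Index of the cones: a `d`-subset and a sign. -/
private abbrev Idx (d m : ℕ) := {S : Finset (Fin m) // S.card = d} × Bool

private noncomputable def cell (g : Fin m → V (d + 1)) (p : Idx d m) : Set (V (d + 1)) :=
  if p.2 then interior (coneC g (canon p.1)) else interior (-(coneC g (canon p.1)))

private lemma isOpen_cell (g : Fin m → V (d + 1)) (p : Idx d m) : IsOpen (cell g p) := by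
  unfold cell
  split_ifs <;> exact isOpen_interior

private lemma cell_subset (g : Fin m → V (d + 1)) (hZ : Body (zonotope g)) (p : Idx d m) :
    cell g p ⊆ zonotope g := by
  unfold cell
  split_ifs
  · exact interior_subset.trans (coneC_subset g (canon_injective p.1))
  · refine interior_subset.trans ?_
    intro x hx
    have := coneC_subset g (canon_injective p.1) (Set.mem_neg.1 hx)
    simpa using hZ.symm _ this

private lemma grad_cell (g : Fin m → V (d + 1)) (hg : Generic g) (hZ : Body (zonotope g))
    (hm : d + 1 ≤ m) (p : Idx d m) {x : V (d + 1)} (hx : x ∈ cell g p) :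
    gaugeGrad (zonotope g) x =
      (if p.2 then (1 : ℝ) else -1) • ((1 / H g (canon p.1)) • nrm g (canon p.1)) := by
  have hpos := hg.H_pos hm (canon_injective p.1)
  unfold cell at hx
  by_cases hb : p.2 = true
  · rw [if_pos hb] at hx
    rw [if_pos hb, one_smul]
    exact grad_on_coneC g (canon_injective p.1) hZ hpos hx
  · rw [if_neg hb] at hx
    rw [if_neg hb, neg_one_smul]
    exact grad_on_neg_coneC g (canon_injective p.1) hZ hpos hx

private lemma cell_disjoint (g : Fin m → V (d + 1)) (hg : Generic g) (hZ : Body (zonotope g))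
    (hm : d + 1 ≤ m) {p q : Idx d m} (hpq : p ≠ q) : Disjoint (cell g p) (cell g q) := by
  rw [Set.disjoint_left]
  intro x hxp hxq
  have e1 := grad_cell g hg hZ hm p hxp
  have e2 := grad_cell g hg hZ hm q hxq
  rw [e1] at e2
  have hHp := hg.H_pos hm (canon_injective p.1)
  have hHq := hg.H_pos hm (canon_injective q.1)
  set ep : ℝ := if p.2 then 1 else -1 with hep
  set eq' : ℝ := if q.2 then 1 else -1 with heq'
  have hep0 : ep ≠ 0 := by rw [hep]; split_ifs <;> norm_num
  have heq0 : eq' ≠ 0 := by rw [heq']; split_ifs <;> norm_num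
  by_cases hS : p.1 = q.1
  · have hb : p.2 ≠ q.2 := fun h => hpq (Prod.ext hS h)
    rw [← hS] at e2
    have hN := hg.nrm_ne_zero hm (canon_injective p.1)
    have hval : ep = -eq' := by
      rw [hep, heq']
      cases hp2 : p.2 <;> cases hq2 : q.2 <;> simp_all
    apply hN
    have h2 : ep • ((1 / H g (canon p.1)) • nrm g (canon p.1)) =
        (-ep) • ((1 / H g (canon p.1)) • nrm g (canon p.1)) := by
      rw [e2, hval, neg_neg]
    have h3 : (2 * ep * (1 / H g (canon p.1))) • nrm g (canon p.1) = 0 := by
      have : ep • ((1 / H g (canon p.1)) • nrm g (canon p.1)) -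
          (-ep) • ((1 / H g (canon p.1)) • nrm g (canon p.1)) = 0 := sub_eq_zero.2 h2
      rw [← this, smul_smul, smul_smul, ← sub_smul]
      congr 1
      ring
    have hc : 2 * ep * (1 / H g (canon p.1)) ≠ 0 := by positivity
    exact (smul_eq_zero.1 h3).resolve_left hc
  · have hST : p.1 ≠ q.1 := hS
    apply hg.nrm_not_parallel hST hm (eq' * (1 / H g (canon q.1)) / (ep * (1 / H g (canon p.1))))
    have h4 : (ep * (1 / H g (canon p.1))) • nrm g (canon p.1) =
        (eq' * (1 / H g (canon q.1))) • nrm g (canon q.1) := by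
      rw [← smul_smul, ← smul_smul]
      exact e2
    have hne : ep * (1 / H g (canon p.1)) ≠ 0 := mul_ne_zero hep0 (by positivity)
    rw [div_eq_inv_mul, ← smul_smul, ← h4, smul_smul, inv_mul_cancel₀ hne, one_smul]

private lemma volume_interior_convex {A : Set (V (d + 1))} (hA : Convex ℝ A) :
    volume (interior A) = volume A := by
  refine le_antisymm (measure_mono interior_subset) ?_
  have hfr : volume (frontier A) = 0 := hA.addHaar_frontier volume
  calc volume A ≤ volume (interior A ∪ frontier A) := by
        refine measure_mono fun x hx => ?_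
        by_cases hxi : x ∈ interior A
        · exact Or.inl hxi
        · exact Or.inr ⟨subset_closure hx, hxi⟩
    _ ≤ volume (interior A) + volume (frontier A) := measure_union_le _ _
    _ = volume (interior A) := by rw [hfr, add_zero]

private lemma volume_cell (g : Fin m → V (d + 1)) (p : Idx d m) :
    volume (cell g p) = ENNReal.ofReal (2 ^ d / ((d : ℝ) + 1) * H g (canon p.1)) := by
  unfold cell
  split_ifs
  · rw [volume_interior_coneC, volume_coneC]
  · rw [volume_interior_convex ((convex_coneC g (canon p.1)).neg), Measure.measure_neg,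
      volume_coneC]

private lemma sum_H_tuples (g : Fin m → V (d + 1)) :
    ∑ τ, H g τ = (d ! : ℝ) * ∑ S : {S : Finset (Fin m) // S.card = d}, H g (canon S) :=
  sum_tuples (H g) (H_perm g) (fun _ h => H_not_injective g h)

private lemma H_nonneg (g : Fin m → V (d + 1)) (τ : Fin d → Fin m) : 0 ≤ H g τ :=
  Finset.sum_nonneg fun _ _ => abs_nonneg _

private lemma fact_eq (d : ℕ) : (2 : ℝ) ^ (d + 1) / ((d + 1)! : ℝ) * (d ! : ℝ) =
    2 ^ (d + 1) / ((d : ℝ) + 1) := by
  rw [Nat.factorial_succ]
  have : (d ! : ℝ) ≠ 0 := by positivity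
  push_cast
  field_simp

/-- The cells cover the zonotope up to a null set. -/
private lemma ae_cover (g : Fin m → V (d + 1)) (hg : Generic g) (hZ : Body (zonotope g))
    (hm : d + 1 ≤ m) :
    (⋃ p ∈ (Finset.univ : Finset (Idx d m)), cell g p) =ᵐ[volume] zonotope g := by
  classical
  set U : Set (V (d + 1)) := ⋃ p ∈ (Finset.univ : Finset (Idx d m)), cell g p with hU
  have hUsub : U ⊆ zonotope g := iUnion₂_subset fun p _ => cell_subset g hZ p
  have hUm : MeasurableSet U :=
    Finset.measurableSet_biUnion _ fun p _ => (isOpen_cell g p).measurableSet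
  have hvU : volume U = ∑ p : Idx d m, volume (cell g p) := by
    rw [hU, measure_biUnion_finset]
    · intro p _ q _ hpq
      exact cell_disjoint g hg hZ hm hpq
    · exact fun p _ => (isOpen_cell g p).measurableSet
  have hvU2 : volume U = ENNReal.ofReal (2 ^ (d + 1) / ((d : ℝ) + 1) *
      ∑ S : {S : Finset (Fin m) // S.card = d}, H g (canon S)) := by
    rw [hvU]
    simp only [volume_cell]
    rw [← ENNReal.ofReal_sum_of_nonneg]
    · congr 1
      rw [Fintype.sum_prod_type, Finset.mul_sum]
      refine Finset.sum_congr rfl fun S _ => ?_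
      rw [Fintype.sum_bool, pow_succ]
      ring
    · intro p _
      have := H_nonneg g (canon p.1)
      positivity
  have hvZ : (volume (zonotope g)).toReal = 2 ^ (d + 1) / ((d : ℝ) + 1) *
      ∑ S : {S : Finset (Fin m) // S.card = d}, H g (canon S) := by
    rw [volume_zonotope (d + 1) g, ← sum_H_eq_D, sum_H_tuples, ← mul_assoc, fact_eq]
  have hZfin : volume (zonotope g) ≠ ∞ := hZ.compact.measure_lt_top.ne
  have hvZ2 : volume (zonotope g) = volume U := by
    rw [hvU2, ← hvZ, ENNReal.ofReal_toReal hZfin]
  refine (ae_eq_of_subset_of_measure_ge hUsub ?_ ?_ hZfin : U =ᵐ[volume] zonotope g)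
  · rw [hvZ2]
  · exact hUm.nullMeasurableSet

private lemma supp_neg' {n : ℕ} {L : Set (V n)} (hs : ∀ x ∈ L, -x ∈ L) (v : V n) :
    supp L (-v) = supp L v := by
  unfold supp
  congr 1
  ext y
  constructor
  · rintro ⟨x, hx, rfl⟩
    exact ⟨-x, hs x hx, by simp⟩
  · rintro ⟨x, hx, rfl⟩
    exact ⟨-x, hs x hx, by simp⟩

theorem integral_log_grad (g : Fin m → V (d + 1)) (hg : Generic g) (hZ : Body (zonotope g))
    {L : Set (V (d + 1))} (hL : SymB L) :
    ∫ x in zonotope g, Real.log (supp L (gaugeGrad (zonotope g) x)) =
      2 ^ (d + 1) / ((d + 1)! : ℝ) * ∑ τ, H g τ * Real.log (supp L (nrm g τ) / H g τ) := by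
  classical
  have hm : d + 1 ≤ m := card_of_volume_pos g hZ.volume_pos
  -- the value on a cell
  have hval : ∀ (p : Idx d m) (x : V (d + 1)), x ∈ cell g p →
      Real.log (supp L (gaugeGrad (zonotope g) x)) =
        Real.log (supp L (nrm g (canon p.1)) / H g (canon p.1)) := by
    intro p x hx
    have hH := hg.H_pos hm (canon_injective p.1)
    have h1 : supp L ((1 / H g (canon p.1)) • nrm g (canon p.1)) =
        supp L (nrm g (canon p.1)) / H g (canon p.1) := by
      rw [supp_smul' _ (by positivity)]
      ring
    rw [grad_cell g hg hZ hm p hx, ← h1]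
    by_cases hb : p.2 = true
    · rw [if_pos hb, one_smul]
    · rw [if_neg hb, neg_one_smul, supp_neg' hL.2.1]
  -- integrate
  have hcover := ae_cover g hg hZ hm
  rw [← setIntegral_congr_set hcover]
  have hpd : Set.PairwiseDisjoint (↑(Finset.univ : Finset (Idx d m))) (cell g) := by
    intro p _ q _ hpq
    exact cell_disjoint g hg hZ hm hpq
  have hconst : ∀ p : Idx d m,
      ∫ x in cell g p, Real.log (supp L (gaugeGrad (zonotope g) x)) =
        (2 ^ d / ((d : ℝ) + 1) * H g (canon p.1)) *
          Real.log (supp L (nrm g (canon p.1)) / H g (canon p.1)) := by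
    intro p
    rw [setIntegral_congr_fun (isOpen_cell g p).measurableSet (fun x hx => hval p x hx),
      setIntegral_const, smul_eq_mul]
    congr 1
    rw [Measure.real, volume_cell, ENNReal.toReal_ofReal]
    have := H_nonneg g (canon p.1)
    positivity
  have hintOn : ∀ p ∈ (Finset.univ : Finset (Idx d m)),
      IntegrableOn (fun x => Real.log (supp L (gaugeGrad (zonotope g) x))) (cell g p) := by
    intro p _
    have hfin : volume (cell g p) ≠ ∞ := by rw [volume_cell]; exact ENNReal.ofReal_ne_top
    have hc : IntegrableOn (fun _ : V (d + 1) =>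
        Real.log (supp L (nrm g (canon p.1)) / H g (canon p.1))) (cell g p) :=
      integrableOn_const hfin
    exact hc.congr_fun (fun x hx => (hval p x hx).symm) (isOpen_cell g p).measurableSet
  rw [integral_biUnion_finset _ (fun p _ => (isOpen_cell g p).measurableSet) hpd hintOn]
  simp only [hconst]
  -- the sum over tuples
  have hF : ∑ τ, H g τ * Real.log (supp L (nrm g τ) / H g τ) = (d ! : ℝ) *
      ∑ S : {S : Finset (Fin m) // S.card = d},
        H g (canon S) * Real.log (supp L (nrm g (canon S)) / H g (canon S)) := by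
    refine sum_tuples (fun τ => H g τ * Real.log (supp L (nrm g τ) / H g τ)) ?_ ?_
    · intro τ π
      rw [H_perm]
      rcases nrm_perm g τ π with h | h
      · rw [h]
      · rw [h, supp_neg' hL.2.1]
    · intro τ hτ
      rw [H_not_injective g hτ, zero_mul]
  rw [hF, ← mul_assoc, fact_eq, Fintype.sum_prod_type, Finset.mul_sum]
  refine Finset.sum_congr rfl fun S _ => ?_
  rw [Fintype.sum_bool, pow_succ]
  ring

end Vale.Agent.Lib.P227Z
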