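import Vale.Agent.Lib.P227Y.Gauge

/-!
# JOB Y2: convergence of gradients, of volumes and of the integrals under sandwiching
-/

open MeasureTheory Set Filter Topology Matrix
open scoped Pointwise ENNReal Nat

namespace Vale.Agent.Lib.P227Z

variable {n : ℕ} {K : Set (V n)} {Z : ℕ → Set (V n)} {c : ℕ → ℝ} {x : V n}

private lemma Approx.one_sub_pos (h : Approx K Z c) (j : ℕ) : 0 < 1 - c j := by
  have := h.cle j
  linarith

private lemma Approx.one_add_pos (h : Approx K Z c) (j : ℕ) : 0 < 1 + c j := by
  have := h.cnn j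
  linarith

theorem Approx.gauge_le (h : Approx K Z c) (j : ℕ) (x : V n) :
    gauge K x ≤ (1 + c j) * gauge (Z j) x ∧ (1 - c j) * gauge (Z j) x ≤ gauge K x := by
  have h1 := h.one_add_pos j
  have h2 := h.one_sub_pos j
  constructor
  · have hm : gauge ((1 + c j) • K) x ≤ gauge (Z j) x :=
      gauge_mono (absorbent_nhds_zero (h.bodyZ j).nhds) (h.sub1 j) x
    rw [gauge_smul_left_of_nonneg h1.le] at hm
    simp only [Pi.smul_apply, smul_eq_mul] at hm
    rwa [inv_mul_le_iff₀ h1] at hm
  · have hnh : (1 - c j) • K ∈ 𝓝 (0 : V n) := (set_smul_mem_nhds_zero_iff h2.ne').2 h.body.nhds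
    have hm : gauge (Z j) x ≤ gauge ((1 - c j) • K) x :=
      gauge_mono (absorbent_nhds_zero hnh) (h.sub2 j) x
    rw [gauge_smul_left_of_nonneg h2.le] at hm
    simp only [Pi.smul_apply, smul_eq_mul] at hm
    rwa [le_inv_mul_iff₀ h2] at hm

theorem Approx.gauge_tendsto (h : Approx K Z c) (x : V n) :
    Tendsto (fun j => gauge (Z j) x) atTop (𝓝 (gauge K x)) := by
  have hlo : Tendsto (fun j => (1 + c j)⁻¹ * gauge K x) atTop (𝓝 (gauge K x)) := by
    have : Tendsto (fun j => (1 + c j)⁻¹ * gauge K x) atTop (𝓝 ((1 + 0)⁻¹ * gauge K x)) :=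
      ((tendsto_const_nhds.add h.clim).inv₀ (by norm_num)).mul_const _
    simpa using this
  have hhi : Tendsto (fun j => (1 - c j)⁻¹ * gauge K x) atTop (𝓝 (gauge K x)) := by
    have : Tendsto (fun j => (1 - c j)⁻¹ * gauge K x) atTop (𝓝 ((1 - 0)⁻¹ * gauge K x)) :=
      ((tendsto_const_nhds.sub h.clim).inv₀ (by norm_num)).mul_const _
    simpa using this
  refine tendsto_of_tendsto_of_tendsto_of_le_of_le hlo hhi (fun j => ?_) (fun j => ?_)
  · have := (h.gauge_le j x).1
    show (1 + c j)⁻¹ * gauge K x ≤ gauge (Z j) x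
    rwa [inv_mul_le_iff₀ (h.one_add_pos j)]
  · have := (h.gauge_le j x).2
    show gauge (Z j) x ≤ (1 - c j)⁻¹ * gauge K x
    rwa [le_inv_mul_iff₀ (h.one_sub_pos j)]

/-- Squeeze with the subgradient inequality `g_j (x + δ y) ≥ g_j (x) + δ y · p_j`, coordinate by
coordinate. -/
theorem Approx.tendsto_grad (h : Approx K Z c) (hd : DifferentiableAt ℝ (gauge K) x)
    (hdj : ∀ j, DifferentiableAt ℝ (gauge (Z j)) x) :
    Tendsto (fun j => gaugeGrad (Z j) x) atTop (𝓝 (gaugeGrad K x)) := by
  rw [tendsto_pi_nhds]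
  intro i
  let e : V n := Pi.single i 1
  have hcoord : ∀ j, gaugeGrad (Z j) x i = e ⬝ᵥ gaugeGrad (Z j) x :=
    fun j => fderiv_gauge_apply (hdj j) e
  have hsub : ∀ j t, t * gaugeGrad (Z j) x i ≤ gauge (Z j) (x + t • e) - gauge (Z j) x := by
    intro j t
    have h1 := (h.bodyZ j).dot_grad_le (hdj j) (x + t • e)
    have h2 := (h.bodyZ j).dot_grad_self (hdj j)
    rw [add_dotProduct, smul_dotProduct, h2, ← hcoord j, smul_eq_mul] at h1
    linarith
  have hline : HasLineDerivAt ℝ (gauge K) (gaugeGrad K x i) x e :=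
    hd.hasFDerivAt.hasLineDerivAt e
  have hlim : ∀ t : ℝ, Tendsto (fun j => t⁻¹ • (gauge (Z j) (x + t • e) - gauge (Z j) x)) atTop
      (𝓝 (t⁻¹ • (gauge K (x + t • e) - gauge K x))) := fun t =>
    ((h.gauge_tendsto _).sub (h.gauge_tendsto _)).const_smul _
  rw [tendsto_order]
  constructor
  · intro a ha
    have hs := hline.tendsto_slope_zero_left
    have hev : ∀ᶠ t in 𝓝[<] (0 : ℝ), a < t⁻¹ • (gauge K (x + t • e) - gauge K x) :=
      hs.eventually (lt_mem_nhds ha)
    obtain ⟨t, ht1, ht2⟩ := (hev.and self_mem_nhdsWithin).exists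
    have ht : t < 0 := ht2
    filter_upwards [(hlim t).eventually (lt_mem_nhds ht1)] with j hj
    refine hj.trans_le ?_
    have := hsub j t
    rw [smul_eq_mul, inv_mul_eq_div, div_le_iff_of_neg ht, mul_comm]
    exact this
  · intro b hb
    have hs := hline.tendsto_slope_zero_right
    have hev : ∀ᶠ t in 𝓝[>] (0 : ℝ), t⁻¹ • (gauge K (x + t • e) - gauge K x) < b :=
      hs.eventually (gt_mem_nhds hb)
    obtain ⟨t, ht1, ht2⟩ := (hev.and self_mem_nhdsWithin).exists
    have ht : 0 < t := ht2
    filter_upwards [(hlim t).eventually (gt_mem_nhds ht1)] with j hj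
    refine lt_of_le_of_lt ?_ hj
    have := hsub j t
    rw [smul_eq_mul, inv_mul_eq_div, le_div_iff₀ ht, mul_comm]
    exact this

/-- `1_{Z j} → 1_K` off the frontier of `K`. -/
theorem Approx.tendsto_volume (h : Approx K Z c) :
    Tendsto (fun j => (volume (Z j)).toReal) atTop (𝓝 (volume K).toReal) := by
  have hfin : volume K ≠ ∞ := h.body.compact.measure_lt_top.ne
  have hfin' : ∀ r : ℝ, volume (r • K) ≠ ∞ := fun r => by
    rw [Measure.addHaar_smul]
    exact ENNReal.mul_ne_top ENNReal.ofReal_ne_top hfin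
  have hvol : ∀ r : ℝ, 0 ≤ r → (volume (r • K)).toReal = r ^ n * (volume K).toReal := by
    intro r hr
    rw [Measure.addHaar_smul, ENNReal.toReal_mul, ENNReal.toReal_ofReal (abs_nonneg _),
      abs_of_nonneg (by positivity)]
    simp
  have hlo : Tendsto (fun j => (1 - c j) ^ n * (volume K).toReal) atTop
      (𝓝 (volume K).toReal) := by
    have : Tendsto (fun j => (1 - c j) ^ n * (volume K).toReal) atTop
        (𝓝 ((1 - 0) ^ n * (volume K).toReal)) :=
      ((tendsto_const_nhds.sub h.clim).pow n).mul_const _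
    simpa using this
  have hhi : Tendsto (fun j => (1 + c j) ^ n * (volume K).toReal) atTop
      (𝓝 (volume K).toReal) := by
    have : Tendsto (fun j => (1 + c j) ^ n * (volume K).toReal) atTop
        (𝓝 ((1 + 0) ^ n * (volume K).toReal)) :=
      ((tendsto_const_nhds.add h.clim).pow n).mul_const _
    simpa using this
  refine tendsto_of_tendsto_of_tendsto_of_le_of_le hlo hhi (fun j => ?_) (fun j => ?_)
  · show (1 - c j) ^ n * (volume K).toReal ≤ (volume (Z j)).toReal
    rw [← hvol _ (h.one_sub_pos j).le]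
    exact ENNReal.toReal_mono (ne_top_of_le_ne_top (hfin' _) (measure_mono (h.sub1 j)))
      (measure_mono (h.sub2 j))
  · show (volume (Z j)).toReal ≤ (1 + c j) ^ n * (volume K).toReal
    rw [← hvol _ (h.one_add_pos j).le]
    exact ENNReal.toReal_mono (hfin' _) (measure_mono (h.sub1 j))

private lemma abs_log_le_max {a b s : ℝ} (ha : 0 < a) (has : a ≤ s) (hsb : s ≤ b) :
    |Real.log s| ≤ max |Real.log a| |Real.log b| := by
  have hs : 0 < s := ha.trans_le has
  have h1 : Real.log a ≤ Real.log s := Real.log_le_log ha has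
  have h2 : Real.log s ≤ Real.log b := Real.log_le_log hs hsb
  rw [abs_le]
  constructor
  · have h3 : -|Real.log a| ≤ Real.log a := neg_abs_le _
    have h4 : |Real.log a| ≤ max |Real.log a| |Real.log b| := le_max_left _ _
    linarith
  · have h3 : Real.log b ≤ |Real.log b| := le_abs_self _
    have h4 : |Real.log b| ≤ max |Real.log a| |Real.log b| := le_max_right _ _
    linarith

private lemma measurable_log_supp {L : Set (V n)} (hL : SymB L) (A : Set (V n)) :
    Measurable (fun x => Real.log (supp L (gaugeGrad A x))) :=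
  Real.measurable_log.comp ((supp_continuous' hL.1).measurable.comp (measurable_gaugeGrad A))

/-- Uniform bound on `log h_L (p)` for a body: `a ≤ h_L(p) ≤ b` from `supp_comparable`, `supp_grad`. -/
theorem Body.integrableOn_log (hK : Body K) {L : Set (V n)} (hL : SymB L) :
    IntegrableOn (fun x => Real.log (supp L (gaugeGrad K x))) K := by
  obtain ⟨a, b, ha, hb, hab⟩ := supp_comparable hK hL
  refine Measure.integrableOn_of_bounded
    (M := max (max |Real.log a| |Real.log b|) |Real.log (supp L (gaugeGrad K 0))|)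
    hK.compact.measure_lt_top.ne (measurable_log_supp hL K).aestronglyMeasurable ?_
  refine ae_restrict_of_ae ?_
  filter_upwards [hK.ae_diff] with x hx
  rw [Real.norm_eq_abs]
  by_cases hx0 : x = 0
  · subst hx0
    exact le_max_right _ _
  · have h1 := hK.supp_grad hx hx0
    have h2 := hab (gaugeGrad K x)
    rw [h1, mul_one, mul_one] at h2
    exact le_max_of_le_left (abs_log_le_max ha h2.1 h2.2)

private lemma le_supp {A : Set (V n)} (hA : IsCompact A) {y : V n} (hy : y ∈ A) (v : V n) :
    y ⬝ᵥ v ≤ supp A v := by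
  have hcl : Continuous fun x : V n => x ⬝ᵥ v := by
    unfold dotProduct
    fun_prop
  exact le_csSup (hA.bddAbove_image hcl.continuousOn) ⟨y, hy, rfl⟩

private lemma supp_le {A : Set (V n)} (hne : A.Nonempty) {v : V n} {C : ℝ}
    (h : ∀ y ∈ A, y ⬝ᵥ v ≤ C) : supp A v ≤ C := by
  refine csSup_le (hne.image _) ?_
  rintro _ ⟨y, hy, rfl⟩
  exact h y hy

private lemma Approx.supp_sandwich (h : Approx K Z c) (j : ℕ) (v : V n) :
    (1 - c j) * supp K v ≤ supp (Z j) v ∧ supp (Z j) v ≤ (1 + c j) * supp K v := by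
  have h0K : (0 : V n) ∈ K := mem_of_mem_nhds h.body.nhds
  have h1 := h.one_add_pos j
  have h2 := h.one_sub_pos j
  constructor
  · rw [← le_inv_mul_iff₀ h2]
    refine supp_le ⟨0, h0K⟩ (fun y hy => ?_)
    rw [le_inv_mul_iff₀ h2]
    have hmem : (1 - c j) • y ∈ Z j := h.sub2 j (smul_mem_smul_set hy)
    have := le_supp (h.bodyZ j).compact hmem v
    rwa [smul_dotProduct, smul_eq_mul] at this
  · refine supp_le ⟨0, mem_of_mem_nhds (h.bodyZ j).nhds⟩ (fun z hz => ?_)
    obtain ⟨y, hy, rfl⟩ := h.sub1 j hz
    rw [smul_dotProduct, smul_eq_mul]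
    exact mul_le_mul_of_nonneg_left (le_supp h.body.compact hy v) h1.le

private lemma Approx.sub_three_half (h : Approx K Z c) (j : ℕ) : Z j ⊆ (3 / 2 : ℝ) • K := by
  intro z hz
  obtain ⟨y, hy, rfl⟩ := h.sub1 j hz
  have h0K : (0 : V n) ∈ K := mem_of_mem_nhds h.body.nhds
  have hc0 := h.cnn j
  have hc1 := h.cle j
  have ht : (2 / 3 * (1 + c j)) • y ∈ K :=
    h.body.convex.smul_mem_of_zero_mem h0K hy ⟨by positivity, by linarith⟩
  refine ⟨_, ht, ?_⟩
  simp only [smul_smul]
  congr 1
  ring

/-- Dominated convergence, with `supp_comparable` and `supp_grad` for the uniform bound. -/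
theorem Approx.tendsto_integral (h : Approx K Z c) {L : Set (V n)} (hL : SymB L) :
    Tendsto (fun j => ∫ x in Z j, Real.log (supp L (gaugeGrad (Z j) x))) atTop
      (𝓝 (∫ x in K, Real.log (supp L (gaugeGrad K x)))) := by
  rcases n with _ | m
  · have key : ∀ (A : Set (V 0)) (y : V 0), gaugeGrad A y = 0 := fun _ _ => Subsingleton.elim _ _
    simp only [key, setIntegral_const, smul_eq_mul, Measure.real]
    exact h.tendsto_volume.mul_const _
  · obtain ⟨a, b, ha, hb, hab⟩ := supp_comparable h.body hL
    have hcont : Continuous (supp L) := supp_continuous' hL.1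
    have hint : ∀ j, ∫ x in Z j, Real.log (supp L (gaugeGrad (Z j) x)) =
        ∫ x, (Z j).indicator (fun x => Real.log (supp L (gaugeGrad (Z j) x))) x := fun j =>
      (integral_indicator (h.bodyZ j).compact.measurableSet).symm
    have hint0 : ∫ x in K, Real.log (supp L (gaugeGrad K x)) =
        ∫ x, K.indicator (fun x => Real.log (supp L (gaugeGrad K x))) x :=
      (integral_indicator h.body.compact.measurableSet).symm
    simp only [hint, hint0]
    have hne : ∀ᵐ x ∂(volume : Measure (V (m + 1))), x ≠ 0 :=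
      compl_mem_ae_iff.2 (measure_singleton _)
    -- the uniform bound on the gradients
    have hbd : ∀ j (x : V (m + 1)), DifferentiableAt ℝ (gauge (Z j)) x → x ≠ 0 →
        2 / 3 * a ≤ supp L (gaugeGrad (Z j) x) ∧ supp L (gaugeGrad (Z j) x) ≤ 2 * b := by
      intro j x hd hx0
      have h1 := (h.bodyZ j).supp_grad hd hx0
      have h2 := h.supp_sandwich j (gaugeGrad (Z j) x)
      rw [h1] at h2
      have hc0 := h.cnn j
      have hc1 := h.cle j
      set s := supp K (gaugeGrad (Z j) x) with hs
      have hs1 : 2 / 3 ≤ s := by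
        by_contra hlt
        push Not at hlt
        nlinarith [h2.2]
      have hs2 : s ≤ 2 := by
        nlinarith [h2.1]
      have h3 := hab (gaugeGrad (Z j) x)
      rw [← hs] at h3
      constructor
      · nlinarith [h3.1]
      · nlinarith [h3.2]
    set M := max |Real.log (2 / 3 * a)| |Real.log (2 * b)| with hM
    have hM0 : 0 ≤ M := le_max_of_le_left (abs_nonneg _)
    have hS : MeasurableSet ((3 / 2 : ℝ) • K) :=
      (h.body.compact.smul (3 / 2 : ℝ)).measurableSet
    have hSfin : volume ((3 / 2 : ℝ) • K) ≠ ∞ :=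
      (h.body.compact.smul (3 / 2 : ℝ)).measure_lt_top.ne
    refine tendsto_integral_of_dominated_convergence
      (((3 / 2 : ℝ) • K).indicator fun _ => M) ?_ ?_ ?_ ?_
    · intro j
      exact ((measurable_log_supp hL (Z j)).indicator
        (h.bodyZ j).compact.measurableSet).aestronglyMeasurable
    · exact (integrableOn_const hSfin).integrable_indicator hS
    · intro j
      filter_upwards [(h.bodyZ j).ae_diff, hne] with x hd hx0
      by_cases hxZ : x ∈ Z j
      · rw [indicator_of_mem hxZ, indicator_of_mem (h.sub_three_half j hxZ), Real.norm_eq_abs]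
        have := hbd j x hd hx0
        exact abs_log_le_max (by positivity) this.1 this.2
      · rw [indicator_of_notMem hxZ, norm_zero]
        exact indicator_nonneg (fun _ _ => hM0) _
    · filter_upwards [h.body.ae_diff, ae_all_iff.2 (fun j => (h.bodyZ j).ae_diff), hne,
        compl_mem_ae_iff.2 h.body.frontier_null] with x hd hdj hx0 hfr
      by_cases hxi : x ∈ interior K
      · have hlt : gauge K x < 1 := interior_subset_gauge_lt_one K hxi
        have hev : ∀ᶠ j in atTop, x ∈ Z j := by
          filter_upwards [(h.gauge_tendsto x).eventually (gt_mem_nhds hlt)] with j hj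
          exact (h.bodyZ j).mem_iff.2 hj.le
        rw [indicator_of_mem (interior_subset hxi)]
        have hp : Tendsto (fun j => gaugeGrad (Z j) x) atTop (𝓝 (gaugeGrad K x)) :=
          h.tendsto_grad hd hdj
        have hpos : 0 < supp L (gaugeGrad K x) := supp_pos' hL (h.body.grad_ne_zero hd hx0)
        have hl : Tendsto (fun j => Real.log (supp L (gaugeGrad (Z j) x))) atTop
            (𝓝 (Real.log (supp L (gaugeGrad K x)))) :=
          (hcont.continuousAt.tendsto.comp hp).log hpos.ne'
        refine hl.congr' ?_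
        filter_upwards [hev] with j hj
        rw [indicator_of_mem hj]
      · have hxK : x ∉ K := by
          intro hxK
          exact hfr ⟨subset_closure hxK, hxi⟩
        have hgt : 1 < gauge K x := by
          by_contra hle
          exact hxK (h.body.mem_iff.2 (not_lt.1 hle))
        have hev : ∀ᶠ j in atTop, x ∉ Z j := by
          filter_upwards [(h.gauge_tendsto x).eventually (lt_mem_nhds hgt)] with j hj hxZ
          exact absurd ((h.bodyZ j).mem_iff.1 hxZ) (not_le.2 hj)
        rw [indicator_of_notMem hxK]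
        refine (tendsto_const_nhds (x := (0 : ℝ))).congr' ?_
        filter_upwards [hev] with j hj
        rw [indicator_of_notMem hj]

end Vale.Agent.Lib.P227Z
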