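import Vale.Agent.Lib.P227Y.Limit
import Vale.Agent.Lib.P227Y.Identity
import Vale.Agent.Lib.P227Y.GenericApprox
import Vale.Agent.Lib.P227Y.Alek

/-!
# Log-Minkowski inequality at zonoids; Q1 when the log-combination is a zonoid
-/

open MeasureTheory Set Filter Topology Matrix
open scoped Pointwise ENNReal Nat

namespace Vale.Agent.Lib.P227Z

variable {d m : ℕ}

/-- The inequality in integral form at a generic zonotope. -/
theorem log_minkowski_generic (g : Fin m → V (d + 1)) (hg : Generic g) (hZ : Body (zonotope g))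
    {L : Set (V (d + 1))} (hL : SymB L) :
    (volume (zonotope g)).toReal / ((d : ℝ) + 1) *
        Real.log ((volume L).toReal / (volume (zonotope g)).toReal) ≤
      ∫ x in zonotope g, Real.log (supp L (gaugeGrad (zonotope g) x)) := by
  rw [integral_log_grad g hg hZ hL]
  have key := log_minkowski_supp d g hL hZ.volume_pos
  have hv := volume_zonotope (d + 1) g
  rw [← sum_H_eq_D] at hv
  have hc : (0 : ℝ) ≤ 2 ^ (d + 1) / ((d + 1)! : ℝ) := by positivity
  have := mul_le_mul_of_nonneg_left key hc
  have e : (volume (zonotope g)).toReal / ((d : ℝ) + 1) =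
      2 ^ (d + 1) / ((d + 1)! : ℝ) * ((∑ τ, H g τ) / ((d : ℝ) + 1)) := by
    rw [hv]
    ring
  rw [e, mul_assoc]
  exact this

/-- The inequality at every zonoid. -/
theorem log_minkowski_zonoid {K : Set (V (d + 1))} (hK : IsZonoid K) (hV : 0 < volume K)
    {L : Set (V (d + 1))} (hL : SymB L) :
    (volume K).toReal / ((d : ℝ) + 1) * Real.log ((volume L).toReal / (volume K).toReal) ≤
      ∫ x in K, Real.log (supp L (gaugeGrad K x)) := by
  obtain ⟨M, G, c, hG, hA⟩ := exists_approx hK hV
  have hKfin : volume K ≠ ∞ := hK.1.measure_lt_top.ne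
  have hKr : 0 < (volume K).toReal := ENNReal.toReal_pos hV.ne' hKfin
  have hvol := hA.tendsto_volume
  have hint := hA.tendsto_integral hL
  have hleft : Tendsto (fun j => (volume (zonotope (G j))).toReal / ((d : ℝ) + 1) *
      Real.log ((volume L).toReal / (volume (zonotope (G j))).toReal)) atTop
      (𝓝 ((volume K).toReal / ((d : ℝ) + 1) *
        Real.log ((volume L).toReal / (volume K).toReal))) := by
    refine (hvol.div_const _).mul ?_
    have hLr : 0 < (volume L).toReal :=
      ENNReal.toReal_pos hL.2.2.ne' hL.1.measure_lt_top.ne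
    have h2 : Tendsto (fun j => (volume L).toReal / (volume (zonotope (G j))).toReal) atTop
        (𝓝 ((volume L).toReal / (volume K).toReal)) :=
      tendsto_const_nhds.div hvol hKr.ne'
    exact h2.log (div_pos hLr hKr).ne'
  exact le_of_tendsto_of_tendsto' hleft hint fun j =>
    log_minkowski_generic (G j) (hG j) (hA.bodyZ j) hL

/-- Q1 when the log-combination is a zonoid. -/
theorem q1_of_zonoid {K K₀ K₁ : Set (V (d + 1))} (hK : IsZonoid K) (hV : 0 < volume K)
    (h₀ : SymB K₀) (h₁ : SymB K₁) {t : ℝ} (t0 : 0 ≤ t) (t1 : t ≤ 1) (hQ : logCombV K₀ K₁ t = K) :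
    volume K₀ ^ (1 - t) * volume K₁ ^ t ≤ volume K := by
  classical
  have hB : Body K := Body.of_zonoid hK hV
  set f : V (d + 1) → ℝ := fun u => supp K₀ u ^ (1 - t) * supp K₁ u ^ t with hf
  have hW : wulffV f = K := hQ
  have hhom : ∀ (c : ℝ) (v : V (d + 1)), 0 < c → v ≠ 0 → f (c • v) = c * f v := by
    intro c v hc hv
    have h0 := supp_pos' h₀ hv
    have h1 := supp_pos' h₁ hv
    simp only [hf]
    rw [supp_smul' _ hc, supp_smul' _ hc, Real.mul_rpow hc.le h0.le, Real.mul_rpow hc.le h1.le]
    have : c ^ (1 - t) * c ^ t = c := by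
      rw [← Real.rpow_add hc]
      simp
    calc c ^ (1 - t) * supp K₀ v ^ (1 - t) * (c ^ t * supp K₁ v ^ t)
        = (c ^ (1 - t) * c ^ t) * (supp K₀ v ^ (1 - t) * supp K₁ v ^ t) := by ring
      _ = _ := by rw [this]
  have hcont : ∀ v, v ≠ 0 → ContinuousAt f v := by
    intro v hv
    have h0 := supp_pos' h₀ hv
    have h1 := supp_pos' h₁ hv
    exact ((supp_continuous' h₀.1).continuousAt.rpow_const (Or.inl h0.ne')).mul
      ((supp_continuous' h₁.1).continuousAt.rpow_const (Or.inl h1.ne'))
  -- the two inequalities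
  have key₀ := log_minkowski_zonoid hK hV h₀
  have key₁ := log_minkowski_zonoid hK hV h₁
  have hint₀ := hB.integrableOn_log h₀
  have hint₁ := hB.integrableOn_log h₁
  -- the weighted integrand vanishes almost everywhere
  have hae : ∀ᵐ x ∂(volume.restrict K), (1 - t) * Real.log (supp K₀ (gaugeGrad K x)) +
      t * Real.log (supp K₁ (gaugeGrad K x)) = 0 := by
    have h1 : ∀ᵐ x ∂(volume : Measure (V (d + 1))), x ≠ 0 := by
      filter_upwards [compl_mem_ae_iff.2 (measure_singleton (0 : V (d + 1)))] with x hx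
      simpa using hx
    have h2 := hB.ae_diff
    refine ae_restrict_of_ae ?_
    filter_upwards [h1, h2] with x hx0 hxd
    have hp := hB.grad_ne_zero hxd hx0
    have a0 := supp_pos' h₀ hp
    have a1 := supp_pos' h₁ hp
    have hone := alek hB hW hcont hhom hx0 hxd
    have : Real.log (f (gaugeGrad K x)) = 0 := by rw [hone, Real.log_one]
    simp only [hf] at this
    rw [Real.log_mul (Real.rpow_pos_of_pos a0 _).ne' (Real.rpow_pos_of_pos a1 _).ne',
      Real.log_rpow a0, Real.log_rpow a1] at this
    exact this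
  have hright : (1 - t) * (∫ x in K, Real.log (supp K₀ (gaugeGrad K x))) +
      t * (∫ x in K, Real.log (supp K₁ (gaugeGrad K x))) = 0 := by
    rw [← integral_const_mul, ← integral_const_mul, ← integral_add (hint₀.const_mul _)
      (hint₁.const_mul _)]
    rw [integral_congr_ae hae]
    simp
  have hKfin : volume K ≠ ∞ := hK.1.measure_lt_top.ne
  have hKr : 0 < (volume K).toReal := ENNReal.toReal_pos hV.ne' hKfin
  have hq : 0 < (volume K).toReal / ((d : ℝ) + 1) := by positivity
  have hsum : (volume K).toReal / ((d : ℝ) + 1) *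
      ((1 - t) * Real.log ((volume K₀).toReal / (volume K).toReal) +
        t * Real.log ((volume K₁).toReal / (volume K).toReal)) ≤ 0 := by
    rw [← hright]
    have t0' : 0 ≤ 1 - t := by linarith
    nlinarith [mul_le_mul_of_nonneg_left key₀ t0', mul_le_mul_of_nonneg_left key₁ t0]
  have hlogle : (1 - t) * Real.log ((volume K₀).toReal / (volume K).toReal) +
      t * Real.log ((volume K₁).toReal / (volume K).toReal) ≤ 0 :=
    nonpos_of_mul_nonpos_right hsum hq
  have hK₀fin : volume K₀ ≠ ∞ := h₀.1.measure_lt_top.ne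
  have hK₁fin : volume K₁ ≠ ∞ := h₁.1.measure_lt_top.ne
  have hA : 0 < (volume K₀).toReal := ENNReal.toReal_pos h₀.2.2.ne' hK₀fin
  have hB' : 0 < (volume K₁).toReal := ENNReal.toReal_pos h₁.2.2.ne' hK₁fin
  rw [Real.log_div hA.ne' hKr.ne', Real.log_div hB'.ne' hKr.ne'] at hlogle
  set a := (volume K₀).toReal with ha
  set b := (volume K₁).toReal with hb
  set z := (volume K).toReal with hz
  have hreal : a ^ (1 - t) * b ^ t ≤ z := by
    have h1 : Real.log (a ^ (1 - t) * b ^ t) ≤ Real.log z := by
      rw [Real.log_mul (Real.rpow_pos_of_pos hA _).ne' (Real.rpow_pos_of_pos hB' _).ne',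
        Real.log_rpow hA, Real.log_rpow hB']
      nlinarith
    exact (Real.log_le_log_iff (mul_pos (Real.rpow_pos_of_pos hA _) (Real.rpow_pos_of_pos hB' _))
      hKr).1 h1
  have e0 : volume K₀ = ENNReal.ofReal a := (ENNReal.ofReal_toReal hK₀fin).symm
  have e1 : volume K₁ = ENNReal.ofReal b := (ENNReal.ofReal_toReal hK₁fin).symm
  have ez : volume K = ENNReal.ofReal z := (ENNReal.ofReal_toReal hKfin).symm
  rw [e0, e1, ez]
  have hne : ENNReal.ofReal a ^ (1 - t) * ENNReal.ofReal b ^ t =
      ENNReal.ofReal (a ^ (1 - t) * b ^ t) := by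
    rw [ENNReal.ofReal_mul (Real.rpow_nonneg hA.le _),
      ENNReal.ofReal_rpow_of_nonneg hA.le (by linarith),
      ENNReal.ofReal_rpow_of_nonneg hB'.le t0]
  rw [hne]
  exact ENNReal.ofReal_le_ofReal hreal

end Vale.Agent.Lib.P227Z
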