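import Vale.Agent.Lib.P227Y.Gauge

/-!
# JOB Y3: the cones over the facets of a zonotope: volume
-/

open MeasureTheory Set Filter Topology Matrix
open scoped Pointwise ENNReal Nat

namespace Vale.Agent.Lib.P227Z

variable {d m : ℕ}

/-- The vertex-like point `∑ r, sign (det (g r, g ∘ τ)) • g r` of the facet with normal `nrm g τ`. -/
noncomputable def apexV (g : Fin m → V (d + 1)) (τ : Fin d → Fin m) : V (d + 1) :=
  ∑ r, Real.sign (phi g τ (g r)) • g r

/-- The standard pyramid `{0 ≤ w 0 ≤ 1, |w i.succ| ≤ w 0}`. -/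
def pyr (d : ℕ) : Set (V (d + 1)) := {w | 0 ≤ w 0 ∧ w 0 ≤ 1 ∧ ∀ i : Fin d, |w i.succ| ≤ w 0}

/-- The cone from the origin over the parallelotope facet
`apexV g τ + ∑ i, [-g (τ i), g (τ i)]`. -/
def coneC (g : Fin m → V (d + 1)) (τ : Fin d → Fin m) : Set (V (d + 1)) :=
  {x | ∃ (a : ℝ) (s : Fin d → ℝ), 0 ≤ a ∧ a ≤ 1 ∧ (∀ i, |s i| ≤ a) ∧
    x = a • apexV g τ + ∑ i, s i • g (τ i)}

private lemma measurableSet_pyr (d : ℕ) : MeasurableSet (pyr d) := by
  have h : pyr d = {w : V (d + 1) | 0 ≤ w 0} ∩ ({w | w 0 ≤ 1} ∩ ⋂ i : Fin d, {w | |w i.succ| ≤ w 0}) := by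
    ext w
    simp [pyr]
  rw [h]
  refine MeasurableSet.inter ?_ (MeasurableSet.inter ?_ (MeasurableSet.iInter fun i => ?_))
  · exact (isClosed_le continuous_const (continuous_apply 0)).measurableSet
  · exact (isClosed_le (continuous_apply 0) continuous_const).measurableSet
  · exact (isClosed_le (continuous_abs.comp (continuous_apply i.succ))
      (continuous_apply 0)).measurableSet

private lemma convex_pyr (d : ℕ) : Convex ℝ (pyr d) := by
  rintro w ⟨h0, h1, h2⟩ w' ⟨h0', h1', h2'⟩ a b ha hb hab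
  refine ⟨?_, ?_, fun i => ?_⟩
  · simp only [Pi.add_apply, Pi.smul_apply, smul_eq_mul]
    positivity
  · simp only [Pi.add_apply, Pi.smul_apply, smul_eq_mul]
    nlinarith
  · simp only [Pi.add_apply, Pi.smul_apply, smul_eq_mul]
    calc |a * w i.succ + b * w' i.succ| ≤ |a * w i.succ| + |b * w' i.succ| := abs_add_le _ _
      _ = a * |w i.succ| + b * |w' i.succ| := by rw [abs_mul, abs_mul, abs_of_nonneg ha, abs_of_nonneg hb]
      _ ≤ a * w 0 + b * w' 0 := by
        have := h2 i
        have := h2' i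
        gcongr

private lemma integral_aux (d : ℕ) :
    ∫⁻ a : ℝ, (Icc (0 : ℝ) 1).indicator (fun a => ENNReal.ofReal ((2 * a) ^ d)) a =
      ENNReal.ofReal (2 ^ d / ((d : ℝ) + 1)) := by
  rw [lintegral_indicator measurableSet_Icc]
  have hcont : Continuous fun a : ℝ => (2 * a) ^ d := by fun_prop
  have hint : Integrable (fun a : ℝ => (2 * a) ^ d) (volume.restrict (Icc (0 : ℝ) 1)) :=
    hcont.continuousOn.integrableOn_compact isCompact_Icc
  have hnn : 0 ≤ᵐ[volume.restrict (Icc (0 : ℝ) 1)] fun a : ℝ => (2 * a) ^ d := by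
    filter_upwards [ae_restrict_mem measurableSet_Icc] with a ha
    have := ha.1
    simp only [Pi.zero_apply]
    positivity
  rw [← ofReal_integral_eq_lintegral_ofReal hint hnn]
  congr 1
  rw [integral_Icc_eq_integral_Ioc, ← intervalIntegral.integral_of_le zero_le_one]
  simp only [mul_pow]
  rw [intervalIntegral.integral_const_mul, integral_pow]
  simp
  ring

theorem volume_pyr (d : ℕ) : volume (pyr d) = ENNReal.ofReal (2 ^ d / ((d : ℝ) + 1)) := by
  have hmp := volume_preserving_piFinSuccAbove (fun _ : Fin (d + 1) => ℝ) 0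
  have hsymm := hmp.symm
  have hS := measurableSet_pyr d
  have h1 := hsymm.measure_preimage hS.nullMeasurableSet
  rw [← h1]
  have hmeas : MeasurableSet
      ((MeasurableEquiv.piFinSuccAbove (fun _ : Fin (d + 1) => ℝ) 0).symm ⁻¹' (pyr d)) :=
    (MeasurableEquiv.piFinSuccAbove (fun _ : Fin (d + 1) => ℝ) 0).symm.measurable hS
  rw [Measure.volume_eq_prod, Measure.prod_apply hmeas, ← integral_aux d]
  apply lintegral_congr
  intro a
  have e : ∀ y : V d, (MeasurableEquiv.piFinSuccAbove (fun _ : Fin (d + 1) => ℝ) 0).symm (a, y) =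
      (Fin.cons a y : V (d + 1)) := by
    intro y
    apply (MeasurableEquiv.piFinSuccAbove (fun _ : Fin (d + 1) => ℝ) 0).injective
    rw [MeasurableEquiv.apply_symm_apply]
    ext i
    · simp [MeasurableEquiv.piFinSuccAbove]
    · simp [MeasurableEquiv.piFinSuccAbove]
  by_cases ha : a ∈ Icc (0 : ℝ) 1
  · rw [indicator_of_mem ha]
    have hsec : Prod.mk a ⁻¹' ((MeasurableEquiv.piFinSuccAbove (fun _ : Fin (d + 1) => ℝ) 0).symm ⁻¹' (pyr d))
        = Set.pi univ fun _ : Fin d => Icc (-a) a := by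
      ext y
      simp only [mem_preimage, e, pyr, mem_ofPred_eq, Fin.cons_zero, Fin.cons_succ, Set.mem_pi]
      constructor
      · rintro ⟨_, _, h⟩ i _
        exact abs_le.1 (h i)
      · intro h
        exact ⟨ha.1, ha.2, fun i => abs_le.2 (h i (mem_univ i))⟩
    rw [hsec, volume_pi_pi]
    simp only [Real.volume_Icc, Finset.prod_const, Finset.card_univ, Fintype.card_fin]
    rw [← ENNReal.ofReal_pow (by linarith [ha.1])]
    congr 1
    ring
  · rw [indicator_of_notMem ha]
    have hsec : Prod.mk a ⁻¹' ((MeasurableEquiv.piFinSuccAbove (fun _ : Fin (d + 1) => ℝ) 0).symm ⁻¹' (pyr d))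
        = ∅ := by
      ext y
      simp only [mem_preimage, e, pyr, mem_ofPred_eq, Fin.cons_zero, mem_empty_iff_false, iff_false]
      rintro ⟨h0, h1, _⟩
      exact ha ⟨h0, h1⟩
    rw [hsec, measure_empty]

private lemma sign_mul_self'' (a : ℝ) : Real.sign a * a = |a| := by
  rcases lt_trichotomy a 0 with h | h | h
  · rw [Real.sign_of_neg h, abs_of_neg h]; ring
  · simp [h]
  · rw [Real.sign_of_pos h, abs_of_pos h]; ring

private lemma abs_sign_le'' (a : ℝ) : |Real.sign a| ≤ 1 := by
  rcases lt_trichotomy a 0 with h | h | h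
  · rw [Real.sign_of_neg h]; simp
  · simp [h]
  · rw [Real.sign_of_pos h]; simp

/-- `apexV g τ · nrm g τ = H g τ`. -/
theorem apexV_dot_nrm (g : Fin m → V (d + 1)) (τ : Fin d → Fin m) :
    apexV g τ ⬝ᵥ nrm g τ = H g τ := by
  unfold apexV H
  rw [sum_dotProduct]
  refine Finset.sum_congr rfl fun r _ => ?_
  rw [smul_dotProduct, dot_nrm, smul_eq_mul, sign_mul_self'']

/-- The linear map `w ↦ w 0 • apexV g τ + ∑ i, w i.succ • g (τ i)`. -/
private noncomputable def coneMat (g : Fin m → V (d + 1)) (τ : Fin d → Fin m) :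
    Matrix (Fin (d + 1)) (Fin (d + 1)) ℝ :=
  Matrix.of (Fin.cons (apexV g τ) fun j => g (τ j))

private lemma coneMat_apply (g : Fin m → V (d + 1)) (τ : Fin d → Fin m) (w : V (d + 1)) :
    Matrix.toLin' (coneMat g τ)ᵀ w = w 0 • apexV g τ + ∑ i : Fin d, w i.succ • g (τ i) := by
  rw [Matrix.toLin'_apply]
  funext k
  simp only [Matrix.mulVec, dotProduct, Matrix.transpose_apply, coneMat, Matrix.of_apply,
    Pi.add_apply, Pi.smul_apply, smul_eq_mul, Finset.sum_apply]
  rw [Fin.sum_univ_succ]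
  simp only [Fin.cons_zero, Fin.cons_succ]
  congr 1
  · ring
  · exact Finset.sum_congr rfl fun i _ => by ring

private lemma coneC_eq_image (g : Fin m → V (d + 1)) (τ : Fin d → Fin m) :
    coneC g τ = Matrix.toLin' (coneMat g τ)ᵀ '' pyr d := by
  ext x
  constructor
  · rintro ⟨a, s, h0, h1, hs, rfl⟩
    refine ⟨Fin.cons a s, ⟨by simpa using h0, by simpa using h1, fun i => by simpa using hs i⟩, ?_⟩
    rw [coneMat_apply]
    simp
  · rintro ⟨w, ⟨h0, h1, hs⟩, rfl⟩
    exact ⟨w 0, fun i => w i.succ, h0, h1, hs, coneMat_apply g τ w⟩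

private lemma H_nonneg' (g : Fin m → V (d + 1)) (τ : Fin d → Fin m) : 0 ≤ H g τ :=
  Finset.sum_nonneg fun _ _ => abs_nonneg _

/-- `coneC g τ` is the image of `pyr d` under the linear map `w ↦ w 0 • apexV g τ + ∑ i, w i.succ • g (τ i)`
of determinant `phi g τ (apexV g τ) = H g τ`. -/
theorem volume_coneC (g : Fin m → V (d + 1)) (τ : Fin d → Fin m) :
    volume (coneC g τ) = ENNReal.ofReal (2 ^ d / ((d : ℝ) + 1) * H g τ) := by
  rw [coneC_eq_image, Measure.addHaar_image_linearMap, LinearMap.det_toLin', Matrix.det_transpose,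
    volume_pyr]
  have hdet : (coneMat g τ).det = H g τ := by
    rw [← apexV_dot_nrm, dot_nrm]
    rfl
  rw [hdet, abs_of_nonneg (H_nonneg' g τ), ← ENNReal.ofReal_mul (H_nonneg' g τ), mul_comm]

theorem convex_coneC (g : Fin m → V (d + 1)) (τ : Fin d → Fin m) : Convex ℝ (coneC g τ) := by
  rw [coneC_eq_image]
  exact (convex_pyr d).linear_image _

private lemma phi_tau (g : Fin m → V (d + 1)) (τ : Fin d → Fin m) (i : Fin d) :
    phi g τ (g (τ i)) = 0 := by
  unfold phi dt
  refine Matrix.det_zero_of_row_eq (i := 0) (j := i.succ) (Fin.succ_ne_zero i).symm ?_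
  funext k
  simp

theorem coneC_subset (g : Fin m → V (d + 1)) {τ : Fin d → Fin m} (hτ : Function.Injective τ) :
    coneC g τ ⊆ zonotope g := by
  classical
  rintro x ⟨a, s, h0, h1, hs, rfl⟩
  refine ⟨fun r => a * Real.sign (phi g τ (g r)) + ∑ i, if τ i = r then s i else 0, fun r => ?_, ?_⟩
  · by_cases hr : ∃ i, τ i = r
    · obtain ⟨i₀, rfl⟩ := hr
      have hsum : (∑ i, if τ i = τ i₀ then s i else 0) = s i₀ := by
        rw [Finset.sum_eq_single i₀]
        · simp
        · intro b _ hb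
          rw [if_neg (fun h => hb (hτ h))]
        · simp
      show |a * Real.sign (phi g τ (g (τ i₀))) + ∑ i, if τ i = τ i₀ then s i else 0| ≤ 1
      rw [hsum, phi_tau, Real.sign_zero, mul_zero, zero_add]
      exact (hs i₀).trans h1
    · have hsum : (∑ i, if τ i = r then s i else 0) = 0 :=
        Finset.sum_eq_zero fun i _ => if_neg fun h => hr ⟨i, h⟩
      show |a * Real.sign (phi g τ (g r)) + ∑ i, if τ i = r then s i else 0| ≤ 1
      rw [hsum, add_zero, abs_mul, abs_of_nonneg h0]
      calc a * |Real.sign (phi g τ (g r))| ≤ 1 * 1 := by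
            gcongr
            exact abs_sign_le'' _
        _ = 1 := one_mul 1
  · have h2 : ∑ r, (∑ i, if τ i = r then s i else 0) • g r = ∑ i, s i • g (τ i) := by
      simp only [Finset.sum_smul]
      rw [Finset.sum_comm]
      refine Finset.sum_congr rfl fun i _ => ?_
      rw [Finset.sum_eq_single (τ i)]
      · simp
      · intro b _ hb
        rw [if_neg (Ne.symm hb), zero_smul]
      · simp
    simp only [add_smul, Finset.sum_add_distrib, h2, mul_smul]
    congr 1
    unfold apexV
    rw [Finset.smul_sum]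

/-- `volume (interior C) = volume C` for the convex cone (`Convex.addHaar_frontier`). -/
theorem volume_interior_coneC (g : Fin m → V (d + 1)) (τ : Fin d → Fin m) :
    volume (interior (coneC g τ)) = volume (coneC g τ) :=
  measure_congr (interior_ae_eq_of_null_frontier ((convex_coneC g τ).addHaar_frontier volume))

end Vale.Agent.Lib.P227Z
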